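import Vale.Agent.P180.R2.H799.BN0

/-!
P180: lifting subgroups and parabolic systems to central extensions of coprime order.
-/

set_option linter.all false

namespace Vale.Agent.P180.R2.H259.Cen

open Vale.Agent.P180.R2.H799

variable {S' S : Type*} [Group S'] [Group S]

/-- The lift of `V`. -/
def liftV (f : S' →* S) (V : Subgroup S) : Subgroup S' :=
  Subgroup.closure {x | f x ∈ V ∧ x ^ Nat.card V = 1}

variable [Finite S'] {f : S' →* S} (hf : Function.Surjective f) (hk : f.ker ≤ Subgroup.center S')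

include hf hk in
theorem mem_liftV {V : Subgroup S} (hc : (Nat.card V).Coprime (Nat.card f.ker)) {x : S'} :
    x ∈ liftV f V ↔ f x ∈ V ∧ x ^ Nat.card V = 1 := by
  classical
  have hfin : Finite S := Finite.of_surjective f hf
  let H : Subgroup S' := V.comap f
  let Z : Subgroup H := f.ker.subgroupOf H
  have hZH : f.ker ≤ H := by
    intro z hz
    change f z ∈ V
    rw [MonoidHom.mem_ker.mp hz]
    exact V.one_mem
  have hidx : Z.index = Nat.card V := by
    have h1 : Z = (f.subgroupComap V).ker := by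
      ext z
      rw [MonoidHom.mem_ker, Subgroup.mem_subgroupOf, MonoidHom.mem_ker]
      exact ⟨fun h => Subtype.ext h, fun h => congrArg Subtype.val h⟩
    have h2 : Function.Surjective (f.subgroupComap V) := by
      rintro ⟨v, hv⟩
      obtain ⟨x, rfl⟩ := hf v
      exact ⟨⟨x, hv⟩, rfl⟩
    rw [h1, Subgroup.index_ker, MonoidHom.range_eq_top.mpr h2,
      Nat.card_congr Subgroup.topEquiv.toEquiv]
  have hZc : ∀ z ∈ Z, ∀ g : H, g * z = z * g := by
    intro z hz g
    exact Subtype.ext (Subgroup.mem_center_iff.mp (hk hz) g)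
  letI : CommGroup Z := { (inferInstance : Group Z) with
    mul_comm := fun a b => Subtype.ext (hZc b.1 b.2 a.1) }
  let τ : H →* Z := MonoidHom.transfer (MonoidHom.id Z)
  have hτ : ∀ g : H, ((τ g : H)) = g ^ Nat.card V := by
    intro g
    have h1 := MonoidHom.transfer_eq_pow (MonoidHom.id Z) g (by
      intro j g₀ h
      have h2 := hZc _ h g₀
      have h3 : g₀⁻¹ * g ^ j * g₀ = g₀ * (g₀⁻¹ * g ^ j * g₀) * g₀⁻¹ := by
        rw [h2]; group
      rw [h3]; group)
    change ((MonoidHom.transfer (MonoidHom.id Z) g : Z) : H) = _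
    rw [h1, ← hidx]
    rfl
  have hker : ∀ g : H, (g : S') ^ Nat.card V = 1 ↔ g ∈ τ.ker := by
    intro g
    rw [MonoidHom.mem_ker]
    constructor
    · intro h
      apply Subtype.ext
      rw [hτ]
      exact Subtype.ext h
    · intro h
      have h1 := hτ g
      rw [h] at h1
      exact (congrArg Subtype.val h1).symm
  have hset : {x | f x ∈ V ∧ x ^ Nat.card V = 1} =
      ((τ.ker.map H.subtype : Subgroup S') : Set S') := by
    ext y
    constructor
    · rintro ⟨h1, h2⟩
      exact ⟨⟨y, h1⟩, (hker ⟨y, h1⟩).mp h2, rfl⟩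
    · rintro ⟨y, hy, rfl⟩
      exact ⟨y.2, (hker y).mpr hy⟩
  rw [liftV, hset, Subgroup.closure_eq]
  exact (Set.ext_iff.mp hset x).symm

include hf hk in
theorem ker_inf_liftV {V : Subgroup S} (hc : (Nat.card V).Coprime (Nat.card f.ker)) {x : S'}
    (hx : x ∈ liftV f V) (h1 : f x = 1) : x = 1 := by
  have h2 := ((mem_liftV hf hk hc).mp hx).2
  have h3 : orderOf x ∣ Nat.card V := orderOf_dvd_of_pow_eq_one h2
  have h4 : orderOf x ∣ Nat.card f.ker := by
    have h5 := orderOf_dvd_natCard (⟨x, h1⟩ : f.ker)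
    rwa [show orderOf (⟨x, h1⟩ : f.ker) = orderOf x from
      (orderOf_injective f.ker.subtype f.ker.subtype_injective _).symm] at h5
  have h6 := Nat.dvd_gcd h3 h4
  rw [Nat.Coprime.gcd_eq_one hc] at h6
  exact orderOf_eq_one_iff.mp (Nat.dvd_one.mp h6)

include hf hk in
theorem map_liftV {V : Subgroup S} (hc : (Nat.card V).Coprime (Nat.card f.ker)) :
    (liftV f V).map f = V := by
  apply le_antisymm
  · rintro _ ⟨x, hx, rfl⟩
    exact ((mem_liftV hf hk hc).mp hx).1
  · intro v hv
    obtain ⟨x, rfl⟩ := hf v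
    -- `x ^ a` with `a = 1` modulo `|V|` and `a = 0` modulo `|ker f|`
    obtain ⟨a, ha1, ha2⟩ := Nat.chineseRemainder hc 1 0
    refine ⟨x ^ a, ?_, ?_⟩
    · refine (mem_liftV hf hk hc).mpr ⟨?_, ?_⟩
      · rw [map_pow]; exact V.pow_mem hv a
      · have h1 : x ^ Nat.card V ∈ f.ker := by
          rw [MonoidHom.mem_ker, map_pow]
          have h2 : (⟨f x, hv⟩ : V) ^ Nat.card V = 1 := pow_card_eq_one'
          exact congrArg Subtype.val h2
        obtain ⟨b, rfl⟩ := (Nat.modEq_zero_iff_dvd.mp ha2)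
        rw [← pow_mul, mul_comm, pow_mul, pow_mul]
        have h3 : (⟨x ^ Nat.card V, h1⟩ : f.ker) ^ Nat.card f.ker = 1 := pow_card_eq_one'
        have h4 : (x ^ Nat.card V) ^ Nat.card f.ker = 1 := congrArg Subtype.val h3
        rw [h4, one_pow]
    · have h2 : (⟨f x, hv⟩ : V) ^ a = (⟨f x, hv⟩ : V) ^ 1 :=
        pow_eq_pow_iff_modEq.mpr (ha1.of_dvd (orderOf_dvd_natCard _))
      have h3 : (f x) ^ a = (f x) ^ 1 := congrArg Subtype.val h2
      rw [map_pow, h3, pow_one]

include hf hk in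
theorem card_liftV {V : Subgroup S} (hc : (Nat.card V).Coprime (Nat.card f.ker)) :
    Nat.card (liftV f V) = Nat.card V := by
  refine Nat.card_eq_of_bijective
    (fun x : liftV f V => (⟨f x, ((mem_liftV hf hk hc).mp x.2).1⟩ : V)) ⟨?_, ?_⟩
  · intro x y hxy
    have h1 : f x = f y := congrArg Subtype.val hxy
    have h2 : f ((x : S') * (y : S')⁻¹) = 1 := by rw [map_mul, map_inv, h1, mul_inv_cancel]
    have h3 := ker_inf_liftV hf hk hc ((liftV f V).mul_mem x.2 ((liftV f V).inv_mem y.2)) h2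
    exact Subtype.ext (mul_inv_eq_one.mp h3)
  · rintro ⟨v, hv⟩
    have h1 : v ∈ (liftV f V).map f := by rw [map_liftV hf hk hc]; exact hv
    obtain ⟨x, hx, rfl⟩ := h1
    exact ⟨⟨x, hx⟩, rfl⟩

include hf hk in
/-- uniqueness -/
theorem eq_liftV {U : Subgroup S'} {V : Subgroup S} (hc : (Nat.card V).Coprime (Nat.card f.ker))
    (hU : U.map f = V) (hU1 : ∀ x ∈ U, f x = 1 → x = 1) : U = liftV f V := by
  have hfin : Finite S := Finite.of_surjective f hf
  have hcard : Nat.card U = Nat.card V := by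
    refine Nat.card_eq_of_bijective
      (fun x : U => (⟨f x, by rw [← hU]; exact ⟨x, x.2, rfl⟩⟩ : V)) ⟨?_, ?_⟩
    · intro x y hxy
      have h1 : f x = f y := congrArg Subtype.val hxy
      have h2 : f ((x : S') * (y : S')⁻¹) = 1 := by rw [map_mul, map_inv, h1, mul_inv_cancel]
      have h3 := hU1 _ (U.mul_mem x.2 (U.inv_mem y.2)) h2
      exact Subtype.ext (mul_inv_eq_one.mp h3)
    · rintro ⟨v, hv⟩
      rw [← hU] at hv
      obtain ⟨x, hx, rfl⟩ := hv
      exact ⟨⟨x, hx⟩, rfl⟩
  have hle : U ≤ liftV f V := by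
    intro x hx
    refine (mem_liftV hf hk hc).mpr ⟨by rw [← hU]; exact ⟨x, hx, rfl⟩, ?_⟩
    have h1 : (⟨x, hx⟩ : U) ^ Nat.card U = 1 := pow_card_eq_one'
    rw [hcard] at h1
    exact congrArg Subtype.val h1
  refine Subgroup.eq_of_le_of_card_ge hle ?_
  rw [card_liftV hf hk hc, hcard]

include hf hk in
theorem liftV_mono {U V : Subgroup S} (hc : (Nat.card V).Coprime (Nat.card f.ker)) (h : U ≤ V) :
    liftV f U ≤ liftV f V := by
  have hfin : Finite S := Finite.of_surjective f hf
  have hcU : (Nat.card U).Coprime (Nat.card f.ker) :=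
    Nat.Coprime.coprime_dvd_left (Subgroup.card_dvd_of_le h) hc
  intro x hx
  obtain ⟨h1, h2⟩ := (mem_liftV hf hk hcU).mp hx
  refine (mem_liftV hf hk hc).mpr ⟨h h1, ?_⟩
  obtain ⟨c, hcd⟩ := Subgroup.card_dvd_of_le h
  rw [hcd, pow_mul, h2, one_pow]

include hf hk in
theorem conj_liftV {V : Subgroup S} (hc : (Nat.card V).Coprime (Nat.card f.ker)) (g : S') :
    (liftV f V).map (MulAut.conj g).toMonoidHom =
      liftV f (V.map (MulAut.conj (f g)).toMonoidHom) := by
  have hcard : Nat.card (V.map (MulAut.conj (f g)).toMonoidHom) = Nat.card V :=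
    (Nat.card_congr (V.equivMapOfInjective _ (MulAut.conj (f g)).injective).toEquiv).symm
  have hc' : (Nat.card (V.map (MulAut.conj (f g)).toMonoidHom)).Coprime (Nat.card f.ker) := by
    rw [hcard]; exact hc
  refine eq_liftV hf hk hc' ?_ ?_
  · conv_rhs => rw [← map_liftV hf hk hc]
    rw [Subgroup.map_map, Subgroup.map_map]
    congr 1
    ext x
    change f (g * x * g⁻¹) = f g * f x * (f g)⁻¹
    rw [map_mul, map_mul, map_inv]
  · rintro _ ⟨x, hx, rfl⟩ h
    have h1 : f (g * x * g⁻¹) = 1 := h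
    have h2 : f x = 1 := by
      rw [map_mul, map_mul, map_inv] at h1
      rwa [mul_inv_eq_one, mul_eq_left] at h1
    rw [ker_inf_liftV hf hk hc hx h2]
    exact map_one _

include hf hk in
theorem normalizer_liftV {V : Subgroup S} (hc : (Nat.card V).Coprime (Nat.card f.ker)) :
    Subgroup.normalizer ((liftV f V : Subgroup S') : Set S') =
      (Subgroup.normalizer (V : Set S)).comap f := by
  ext g
  rw [Subgroup.mem_comap, Subgroup.mem_normalizer_iff, Subgroup.mem_normalizer_iff]
  constructor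
  · intro h v
    have key : ∀ g : S', (∀ x, x ∈ liftV f V → g * x * g⁻¹ ∈ liftV f V) → ∀ v ∈ V,
        f g * v * (f g)⁻¹ ∈ V := by
      intro g hg v hv
      rw [← map_liftV hf hk hc] at hv
      obtain ⟨x, hx, rfl⟩ := hv
      have h1 := ((mem_liftV hf hk hc).mp (hg x hx)).1
      rwa [map_mul, map_mul, map_inv] at h1
    constructor
    · exact key g (fun x hx => (h x).mp hx) v
    · intro hv
      have h1 := key g⁻¹ (fun x hx => by
        have h2 := (h (g⁻¹ * x * g⁻¹⁻¹)).mpr (by
          have h3 : g * (g⁻¹ * x * g⁻¹⁻¹) * g⁻¹ = x := by group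
          rwa [h3])
        exact h2) _ hv
      have h2 : f g⁻¹ * (f g * v * (f g)⁻¹) * (f g⁻¹)⁻¹ = v := by rw [map_inv]; group
      rwa [h2] at h1
  · intro h x
    rw [mem_liftV hf hk hc, mem_liftV hf hk hc, map_mul, map_mul, map_inv, conj_pow]
    refine and_congr (h _) ?_
    constructor
    · intro h1; rw [h1, mul_one, mul_inv_cancel]
    · intro h1
      rwa [mul_inv_eq_one, mul_eq_left] at h1

include hf hk in
theorem centralizer_liftV {V : Subgroup S} (hc : (Nat.card V).Coprime (Nat.card f.ker)) :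
    Subgroup.centralizer ((liftV f V : Subgroup S') : Set S') =
      (Subgroup.centralizer (V : Set S)).comap f := by
  ext g
  rw [Subgroup.mem_comap, Subgroup.mem_centralizer_iff, Subgroup.mem_centralizer_iff]
  constructor
  · intro h v hv
    have hv' : v ∈ (liftV f V).map f := by rw [map_liftV hf hk hc]; exact hv
    obtain ⟨x, hx, rfl⟩ := hv'
    rw [← map_mul, ← map_mul, h x hx]
  · intro h x hx
    have hN : g ∈ Subgroup.normalizer ((liftV f V : Subgroup S') : Set S') := by
      rw [normalizer_liftV hf hk hc, Subgroup.mem_comap, Subgroup.mem_normalizer_iff]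
      have key : ∀ g : S, (∀ v ∈ (V : Set S), v * g = g * v) → ∀ v ∈ V, g * v * g⁻¹ = v := by
        intro g hg v hv
        rw [← hg v hv, mul_inv_cancel_right]
      intro v
      constructor
      · intro hv
        rw [key _ h v hv]
        exact hv
      · intro hv
        have h1 : ∀ v ∈ (V : Set S), v * (f g)⁻¹ = (f g)⁻¹ * v := by
          intro v hv
          have h2 := h v hv
          calc v * (f g)⁻¹ = (f g)⁻¹ * (f g * v) * (f g)⁻¹ := by group
            _ = (f g)⁻¹ * (v * f g) * (f g)⁻¹ := by rw [h2]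
            _ = (f g)⁻¹ * v := by group
        have h3 := key _ h1 _ hv
        have h4 : (f g)⁻¹ * (f g * v * (f g)⁻¹) * (f g)⁻¹⁻¹ = v := by group
        rw [h4] at h3
        rw [h3]
        exact hv
    have h1 : g * x * g⁻¹ ∈ liftV f V := ((Subgroup.mem_normalizer_iff.mp hN) x).mp hx
    have h2 : f (g * x * g⁻¹ * x⁻¹) = 1 := by
      rw [map_mul, map_mul, map_mul, map_inv, map_inv, ← h (f x) ((mem_liftV hf hk hc).mp hx).1]
      group
    have h3 := ker_inf_liftV hf hk hc ((liftV f V).mul_mem h1 ((liftV f V).inv_mem hx)) h2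
    have h4 : g * x * g⁻¹ = x := mul_inv_eq_one.mp h3
    exact (mul_inv_eq_iff_eq_mul.mp h4).symm

include hf hk in
/-- Levi pairs lift. -/
theorem levi_liftV {V Z : Subgroup S} (hcV : (Nat.card V).Coprime (Nat.card f.ker))
    (hcZ : (Nat.card Z).Coprime (Nat.card f.ker)) (h : IsLeviPair V Z) :
    IsLeviPair (liftV f V) (liftV f Z) := by
  obtain ⟨h1, h2⟩ := h
  constructor
  · rw [eq_bot_iff]
    rintro x ⟨hx, hxC⟩
    have h3 : f x ∈ V ⊓ Subgroup.centralizer (Z : Set S) := by
      refine ⟨((mem_liftV hf hk hcV).mp hx).1, ?_⟩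
      change x ∈ Subgroup.centralizer ((liftV f Z : Subgroup S') : Set S') at hxC
      rw [centralizer_liftV hf hk hcZ] at hxC
      exact hxC
    rw [h1, Subgroup.mem_bot] at h3
    exact Subgroup.mem_bot.mpr (ker_inf_liftV hf hk hcV hx h3)
  · rw [centralizer_liftV hf hk hcZ, normalizer_liftV hf hk hcV, ← h2]
    have h4 : f.ker ≤ (Subgroup.centralizer (Z : Set S)).comap f := by
      intro z hz
      rw [Subgroup.mem_comap, MonoidHom.mem_ker.mp hz]
      exact Subgroup.one_mem _
    have h3 : f.ker ≤ liftV f V ⊔ (Subgroup.centralizer (Z : Set S)).comap f :=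
      h4.trans le_sup_right
    rw [← sup_of_le_left h3, ← Subgroup.comap_map_eq, Subgroup.map_sup, map_liftV hf hk hcV,
      Subgroup.map_comap_eq_self_of_surjective hf]

include hf hk in
theorem liftV_star {V W : Subgroup S} (hcV : (Nat.card V).Coprime (Nat.card f.ker))
    (hcW : (Nat.card W).Coprime (Nat.card f.ker))
    (hc : (Nat.card (V ⊔ (Subgroup.normalizer (V : Set S) ⊓ W) : Subgroup S)).Coprime
      (Nat.card f.ker)) :
    liftV f V ⊔ (Subgroup.normalizer ((liftV f V : Subgroup S') : Set S') ⊓ liftV f W) =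
      liftV f (V ⊔ (Subgroup.normalizer (V : Set S) ⊓ W)) := by
  have hfin : Finite S := Finite.of_surjective f hf
  have hcB : (Nat.card (Subgroup.normalizer (V : Set S) ⊓ W : Subgroup S)).Coprime
      (Nat.card f.ker) :=
    Nat.Coprime.coprime_dvd_left (Subgroup.card_dvd_of_le inf_le_right) hcW
  have hB : Subgroup.normalizer ((liftV f V : Subgroup S') : Set S') ⊓ liftV f W =
      liftV f (Subgroup.normalizer (V : Set S) ⊓ W) := by
    rw [normalizer_liftV hf hk hcV]
    refine eq_liftV hf hk hcB ?_ fun x hx => ker_inf_liftV hf hk hcW hx.2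
    apply le_antisymm
    · rintro _ ⟨x, ⟨hx1, hx2⟩, rfl⟩
      exact ⟨hx1, ((mem_liftV hf hk hcW).mp hx2).1⟩
    · rintro y ⟨hy1, hy2⟩
      have h1 : y ∈ (liftV f W).map f := by rw [map_liftV hf hk hcW]; exact hy2
      obtain ⟨x, hx, rfl⟩ := h1
      exact ⟨x, ⟨hy1, hx⟩, rfl⟩
  rw [hB]
  have hle : liftV f V ⊔ liftV f (Subgroup.normalizer (V : Set S) ⊓ W) ≤
      liftV f (V ⊔ (Subgroup.normalizer (V : Set S) ⊓ W)) :=
    sup_le (liftV_mono hf hk hc le_sup_left) (liftV_mono hf hk hc le_sup_right)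
  refine eq_liftV hf hk hc ?_ fun x hx => ker_inf_liftV hf hk hc (hle hx)
  rw [Subgroup.map_sup, map_liftV hf hk hcV, map_liftV hf hk hcB]

include hf hk in
theorem comm_liftV {Z : Subgroup S} (hc : (Nat.card Z).Coprime (Nat.card f.ker))
    (hab : ∀ x ∈ Z, ∀ y ∈ Z, x * y = y * x) :
    ∀ x ∈ liftV f Z, ∀ y ∈ liftV f Z, x * y = y * x := by
  intro x hx y hy
  have h1 : y ∈ Subgroup.centralizer ((liftV f Z : Subgroup S') : Set S') := by
    rw [centralizer_liftV hf hk hc, Subgroup.mem_comap, Subgroup.mem_centralizer_iff]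
    intro z hz
    exact hab z hz _ ((mem_liftV hf hk hc).mp hy).1
  exact Subgroup.mem_centralizer_iff.mp h1 x hx

end Vale.Agent.P180.R2.H259.Cen
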