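import Vale.Agent.P180.R2.H259.Cen.A1
import Vale.Agent.P180.R2.H259.Par.Def

/-!
P180: parabolic systems of central extensions of coprime order.
-/

set_option linter.all false

namespace Vale.Agent.P180.R2.H259.Cen

open Vale.Agent.P180 Vale.Agent.P180.R2.H799

section Sys

variable {S' S : Type*} [Group S'] [Group S] [Finite S'] {f : S' →* S}

/-- The lifted parabolic system. -/
def liftSys {p : ℕ} (𝒮 : ParSys p S) (hf : Function.Surjective f)
    (hk : f.ker ≤ Subgroup.center S')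
    (hc : ∀ V ∈ 𝒮.car, (Nat.card V).Coprime (Nat.card f.ker)) : ParSys p S' where
  car := {V' | ∃ V ∈ 𝒮.car, V' = liftV f V}
  conj := by
    rintro _ ⟨V, hV, rfl⟩ g
    exact ⟨_, 𝒮.conj V hV (f g), conj_liftV hf hk (hc V hV) g⟩
  card := by
    rintro _ ⟨V, hV, rfl⟩
    rw [card_liftV hf hk (hc V hV)]
    exact 𝒮.card V hV
  star := by
    rintro _ ⟨V, hV, rfl⟩ _ ⟨W, hW, rfl⟩
    refine ⟨_, 𝒮.star V hV W hW, ?_⟩
    exact liftV_star hf hk (hc V hV) (hc W hW) (hc _ (𝒮.star V hV W hW))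
  norm := by
    rintro _ ⟨V, hV, rfl⟩ _ ⟨W, hW, rfl⟩
    rw [liftV_star hf hk (hc V hV) (hc W hW) (hc _ (𝒮.star V hV W hW)),
      normalizer_liftV hf hk (hc _ (𝒮.star V hV W hW)), 𝒮.norm V hV W hW,
      normalizer_liftV hf hk (hc V hV), normalizer_liftV hf hk (hc W hW), ← Subgroup.comap_inf]
    have h4 : f.ker ≤ (Subgroup.normalizer (V : Set S) ⊓ Subgroup.normalizer (W : Set S)).comap f := by
      intro z hz
      rw [Subgroup.mem_comap, MonoidHom.mem_ker.mp hz]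
      exact Subgroup.one_mem _
    have h3 : f.ker ≤ liftV f V ⊔
        (Subgroup.normalizer (V : Set S) ⊓ Subgroup.normalizer (W : Set S)).comap f :=
      h4.trans le_sup_right
    rw [← sup_of_le_left h3, ← Subgroup.comap_map_eq, Subgroup.map_sup,
      map_liftV hf hk (hc V hV), Subgroup.map_comap_eq_self_of_surjective hf]

theorem hasLevi_lift {p : ℕ} [hp : Fact p.Prime] (𝒮 : ParSys p S) (hf : Function.Surjective f)
    (hk : f.ker ≤ Subgroup.center S')
    (hc : ∀ V ∈ 𝒮.car, (Nat.card V).Coprime (Nat.card f.ker)) (hpk : ¬ p ∣ Nat.card f.ker)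
    (h : 𝒮.HasLevi) : (liftSys 𝒮 hf hk hc).HasLevi := by
  have hfin : Finite S := Finite.of_surjective f hf
  rintro _ ⟨V, hV, rfl⟩
  obtain ⟨Z, hZ, hab, hl⟩ := h V hV
  obtain ⟨j, hj⟩ := IsPGroup.iff_card.mp hZ
  have hcZ : (Nat.card Z).Coprime (Nat.card f.ker) := by
    rw [hj]
    exact Nat.Coprime.pow_left j ((Nat.Prime.coprime_iff_not_dvd hp.out).mpr hpk)
  refine ⟨liftV f Z, ?_, ?_, levi_liftV hf hk (hc V hV) hcZ hl⟩
  · rw [IsPGroup.iff_card]
    exact ⟨j, by rw [card_liftV hf hk hcZ, hj]⟩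
  · exact comm_liftV hf hk hcZ hab

end Sys

end Vale.Agent.P180.R2.H259.Cen
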