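import Vale.Agent.P180.R2.H259.Cen.A2

/-!
P180: pairs with a split parabolic system, central extensions of coprime order.
-/

set_option linter.all false

namespace Vale.Agent.P180.R2.H259.Cen

open Vale.Agent.P180 Vale.Agent.P180.R2.H799

section

variable {S L L' : Type*} [Group S] [Group L] [Group L']

/-- The fibre product. -/
def Fib (π : S →* L') (f : L →* L') : Subgroup (S × L) :=
  MonoidHom.eqLocus (π.comp (MonoidHom.fst S L)) (f.comp (MonoidHom.snd S L))

theorem mem_Fib {π : S →* L'} {f : L →* L'} {x : S × L} : x ∈ Fib π f ↔ π x.1 = f x.2 := Iff.rfl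

/-- the projection to `S` -/
def pS (π : S →* L') (f : L →* L') : Fib π f →* S := (MonoidHom.fst S L).comp (Fib π f).subtype

/-- the projection to `L` -/
def pL (π : S →* L') (f : L →* L') : Fib π f →* L := (MonoidHom.snd S L).comp (Fib π f).subtype

variable {π : S →* L'} {f : L →* L'}

theorem pS_surj (hf : Function.Surjective f) : Function.Surjective (pS π f) := by
  intro s
  obtain ⟨l, hl⟩ := hf (π s)
  exact ⟨⟨(s, l), hl.symm⟩, rfl⟩

theorem pL_surj (hπ : Function.Surjective π) : Function.Surjective (pL π f) := by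
  intro l
  obtain ⟨s, hs⟩ := hπ (f l)
  exact ⟨⟨(s, l), hs⟩, rfl⟩

theorem mem_center_Fib {x : Fib π f} (h1 : x.1.1 ∈ Subgroup.center S)
    (h2 : x.1.2 ∈ Subgroup.center L) : x ∈ Subgroup.center (Fib π f) := by
  rw [Subgroup.mem_center_iff] at h1 h2 ⊢
  intro y
  exact Subtype.ext (Prod.ext (h1 y.1.1) (h2 y.1.2))

theorem pS_ker (hk : f.ker ≤ Subgroup.center L) :
    (pS π f).ker ≤ Subgroup.center (Fib π f) := by
  intro x hx
  have h1 : x.1.1 = 1 := hx
  have h2 : f x.1.2 = 1 := by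
    have h3 : π x.1.1 = f x.1.2 := x.2
    rw [← h3, h1, map_one]
  exact mem_center_Fib (by rw [h1]; exact Subgroup.one_mem _) (hk h2)

theorem card_pS_ker : Nat.card (pS π f).ker = Nat.card f.ker := by
  refine Nat.card_eq_of_bijective (fun x : (pS π f).ker => (⟨x.1.1.2, by
    have h1 : x.1.1.1 = 1 := x.2
    have h3 : π x.1.1.1 = f x.1.1.2 := x.1.2
    rw [MonoidHom.mem_ker, ← h3, h1, map_one]⟩ : f.ker)) ⟨?_, ?_⟩
  · intro x y hxy
    have h1 : x.1.1.1 = 1 := x.2
    have h2 : y.1.1.1 = 1 := y.2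
    have h3 : x.1.1.2 = y.1.1.2 := congrArg Subtype.val hxy
    exact Subtype.ext (Subtype.ext (Prod.ext (h1.trans h2.symm) h3))
  · rintro ⟨l, hl⟩
    refine ⟨⟨⟨(1, l), ?_⟩, rfl⟩, rfl⟩
    change π 1 = f l
    rw [map_one, MonoidHom.mem_ker.mp hl]

theorem center_pS (hf : Function.Surjective f) {x : Fib π f}
    (hx : x ∈ Subgroup.center (Fib π f)) : pS π f x ∈ Subgroup.center S := by
  rw [Subgroup.mem_center_iff] at hx ⊢
  intro y
  obtain ⟨y, rfl⟩ := pS_surj (π := π) hf y
  rw [← map_mul, ← map_mul, hx y]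

theorem card_center_dvd (hf : Function.Surjective f) [Finite S] [Finite L] :
    Nat.card (Subgroup.center (Fib π f)) ∣ Nat.card (Subgroup.center S) * Nat.card f.ker := by
  rw [← card_pS_ker (π := π)]
  let g : Subgroup.center (Fib π f) →* Subgroup.center S :=
    ((pS π f).comp (Subgroup.center (Fib π f)).subtype).codRestrict _ fun x => center_pS hf x.2
  have h1 : Nat.card (Subgroup.center (Fib π f)) = Nat.card g.ker * Nat.card g.range := by
    rw [← Subgroup.index_ker, Subgroup.card_mul_index]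
  rw [h1, mul_comm]
  refine Nat.mul_dvd_mul (Subgroup.card_subgroup_dvd_card _) ?_
  have h2 : Nat.card g.ker = Nat.card ((g.ker).map (Subgroup.center (Fib π f)).subtype) :=
    (Nat.card_congr ((g.ker).equivMapOfInjective _ (Subgroup.subtype_injective _)).toEquiv)
  rw [h2]
  refine Subgroup.card_dvd_of_le ?_
  rintro _ ⟨x, hx, rfl⟩
  exact congrArg Subtype.val (MonoidHom.mem_ker.mp hx)

end

/-- The pair `(L, A)` has a split parabolic system as in `ParPair` for a group with a central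
subgroup, with `p'`-subgroups of order prime to `z`. -/
def ParZ (p z : ℕ) (L : Type) [Group L] (A : Subgroup L) : Prop :=
  ∃ (S : Type) (_ : Group S) (_ : Finite S) (𝒮 : ParSys p S) (π : S →* L),
    Function.Surjective π ∧ 𝒮.HasLevi ∧ ¬ p ∣ Nat.card (Subgroup.center S) ∧
    (∀ V ∈ 𝒮.car, (Nat.card V).Coprime (Nat.card (Subgroup.center S)) ∧
      (Nat.card V).Coprime z) ∧
    (∀ x, π x ∈ Subgroup.center L → x ∈ Subgroup.center S) ∧
    ∀ Q : Subgroup S, IsPGroup p Q → Q.map π ≤ A →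
      (∀ x ∈ Q, ∀ y ∈ Q, x * y = y * x) ∧ ∃ V ∈ 𝒮.car, IsLeviPair V Q

/-- **Split parabolic systems of central extensions of coprime order.** -/
theorem parPair_lift {p : ℕ} [hp : Fact p.Prime] {L L' : Type} [Group L] [Group L'] [Finite L]
    {f : L →* L'} (hf : Function.Surjective f) (hk : f.ker ≤ Subgroup.center L)
    (hpk : ¬ p ∣ Nat.card f.ker) {A : Subgroup L} (h : ParZ p (Nat.card f.ker) L' (A.map f)) :
    ParPair p L A := by
  obtain ⟨S, _, _, 𝒮, π, hπ, hLv, hpZ, hV, hc, hQ⟩ := h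
  have hfs := pS_surj (π := π) hf
  have hks := pS_ker (π := π) hk
  have hck := card_pS_ker (π := π) (f := f)
  have hcV : ∀ V ∈ 𝒮.car, (Nat.card V).Coprime (Nat.card (pS π f).ker) := by
    intro V hV'
    rw [hck]
    exact (hV V hV').2
  have hpk' : ¬ p ∣ Nat.card (pS π f).ker := by rw [hck]; exact hpk
  refine ⟨Fib π f, inferInstance, inferInstance, liftSys 𝒮 hfs hks hcV, pL π f, pL_surj hπ,
    hasLevi_lift 𝒮 hfs hks hcV hpk' hLv, ?_, ?_, ?_, ?_⟩
  · intro h
    rcases hp.out.dvd_mul.mp (h.trans (card_center_dvd hf)) with h1 | h1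
    · exact hpZ h1
    · exact hpk h1
  · rintro _ ⟨V, hV', rfl⟩
    rw [card_liftV hfs hks (hcV V hV')]
    exact Nat.Coprime.coprime_dvd_right (card_center_dvd hf)
      (Nat.Coprime.mul_right (hV V hV').1 (hV V hV').2)
  · intro x hx
    refine mem_center_Fib (hc _ ?_) hx
    have h1 : π x.1.1 = f x.1.2 := x.2
    rw [h1, Subgroup.mem_center_iff]
    intro l
    obtain ⟨l, rfl⟩ := hf l
    have h2 := Subgroup.mem_center_iff.mp hx l
    have h3 : l * x.1.2 = x.1.2 * l := h2
    rw [← map_mul, ← map_mul, h3]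
  · intro Q' hQ' hQA
    have hQp : IsPGroup p (Q'.map (pS π f)) := hQ'.map _
    have hcQ : (Nat.card (Q'.map (pS π f) : Subgroup S)).Coprime (Nat.card (pS π f).ker) := by
      obtain ⟨j, hj⟩ := IsPGroup.iff_card.mp hQp
      rw [hj]
      exact Nat.Coprime.pow_left j ((Nat.Prime.coprime_iff_not_dvd hp.out).mpr hpk')
    have hQ1 : ∀ x ∈ Q', pS π f x = 1 → x = 1 := by
      intro x hx hx1
      obtain ⟨i, hi⟩ := hQ' ⟨x, hx⟩
      have h1 : x ^ p ^ i = 1 := congrArg Subtype.val hi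
      have h2 : orderOf x ∣ Nat.card (pS π f).ker := by
        have h5 := orderOf_dvd_natCard (⟨x, hx1⟩ : (pS π f).ker)
        rwa [show orderOf (⟨x, hx1⟩ : (pS π f).ker) = orderOf x from
          (orderOf_injective (pS π f).ker.subtype (pS π f).ker.subtype_injective _).symm] at h5
      have h3 : Nat.Coprime (p ^ i) (Nat.card (pS π f).ker) :=
        Nat.Coprime.pow_left i ((Nat.Prime.coprime_iff_not_dvd hp.out).mpr hpk')
      have h4 := Nat.dvd_gcd (orderOf_dvd_of_pow_eq_one h1) h2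
      rw [Nat.Coprime.gcd_eq_one h3] at h4
      exact orderOf_eq_one_iff.mp (Nat.dvd_one.mp h4)
    have hQe : Q' = liftV (pS π f) (Q'.map (pS π f)) := eq_liftV hfs hks hcQ rfl hQ1
    have hQm : (Q'.map (pS π f)).map π ≤ A.map f := by
      rintro _ ⟨_, ⟨x, hx, rfl⟩, rfl⟩
      have h1 : π (pS π f x) = f (pL π f x) := x.2
      rw [h1]
      exact ⟨_, hQA ⟨x, hx, rfl⟩, rfl⟩
    obtain ⟨hab, V, hV', hl⟩ := hQ _ hQp hQm
    refine ⟨?_, liftV (pS π f) V, ⟨V, hV', rfl⟩, ?_⟩
    · rw [hQe]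
      exact comm_liftV hfs hks hcQ hab
    · rw [hQe]
      exact levi_liftV hfs hks (hcV V hV') hcQ hl

end Vale.Agent.P180.R2.H259.Cen
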