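import Vale.Agent.P180.R2.H259.Cen.B1

/-!
P180: central extensions of classical groups of order prime to `p` and to the characteristic.
-/

set_option linter.all false

namespace Vale.Agent.P180.R2.H259.Cen

open Module Vale.Agent.P180 Vale.Agent.P180.R2.H799 Vale.Agent.P180.R2.H799.BN
  Vale.Agent.P180.R2.H854

variable {K E : Type} [Field K] [AddCommGroup E] [Module K E] (Φ : HForm K E)
  [FiniteDimensional K E] [Finite K] {X : Subgroup (SpecialLinearGroup K E)}

/-- **Central extensions of classical groups**, for example Spin groups: the pair `(L, A)` has a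
split parabolic system if `L / Z₁` is the image of a group `X` of isometries of dimension less than
`p`, `Z₁ = ker f` a central subgroup of order prime to `p` and to `|K|`. -/
theorem parPair_form {p : ℕ} [Fact p.Prime] (hp2 : Odd p) {ζ : K} (hζ : ζ ^ p = 1) (hζ1 : ζ ≠ 1)
    (hζθ : Φ.θ ζ = ζ) (hgood : Φ.GoodX X) (hXI : X ≤ Φ.Iso) (hX2 : X.relIndex Φ.Iso ∣ 2)
    {L L' : Type} [Group L] [Group L'] [Finite L] (π : X →* L') (hπ : Function.Surjective π)
    (hcen : ∀ x : X, π x ∈ Subgroup.center L' → x.1 ∈ Subgroup.center (SpecialLinearGroup K E))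
    {f : L →* L'} (hf : Function.Surjective f) (hk : f.ker ≤ Subgroup.center L)
    (hpk : ¬ p ∣ Nat.card f.ker) (hrk : (Nat.card K).Coprime (Nat.card f.ker)) {A : Subgroup L}
    (hd : finrank K E < p ∨
      ((∀ x y : X, (∃ i, x ^ (p ^ i) = 1) → (∃ i, y ^ (p ^ i) = 1) → π x ∈ A.map f →
        π y ∈ A.map f → x * y = y * x) ∧
        ∀ x : X, (∃ i, x ^ (p ^ i) = 1) → π x ∈ A.map f → x ^ (Nat.card K - 1) = 1)) :
    ParPair p L A :=
  parPair_lift hf hk hpk (parZ_form Φ hp2 hζ hζ1 hζθ hgood hXI hX2 π hπ hcen hrk hd)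

/-- The perfect central extensions `L` of a simple group `T = L / Z(L)` which is the quotient modulo
scalars of a classical group of dimension less than `p`, `Z(L)` of order prime to `p` and to
`|K|`. -/
theorem parPair_simple {p : ℕ} [Fact p.Prime] (hp2 : Odd p) {ζ : K} (hζ : ζ ^ p = 1)
    (hζ1 : ζ ≠ 1) (hζθ : Φ.θ ζ = ζ) (hgood : Φ.GoodX X) (hXI : X ≤ Φ.Iso)
    (hX2 : X.relIndex Φ.Iso ∣ 2) (hd : finrank K E < p) {L : Type} [Group L] [Finite L]
    (π : X →* L ⧸ Subgroup.center L) (hπ : Function.Surjective π)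
    (hcen : Subgroup.center (L ⧸ Subgroup.center L) = ⊥)
    (hker : ∀ x : X, π x = 1 → x.1 ∈ Subgroup.center (SpecialLinearGroup K E))
    (hpk : ¬ p ∣ Nat.card (Subgroup.center L))
    (hrk : (Nat.card K).Coprime (Nat.card (Subgroup.center L))) (A : Subgroup L) :
    ParPair p L A := by
  have hkk : (QuotientGroup.mk' (Subgroup.center L)).ker = Subgroup.center L :=
    QuotientGroup.ker_mk' _
  refine parPair_form Φ hp2 hζ hζ1 hζθ hgood hXI hX2 π hπ (fun x hx => ?_)
    (QuotientGroup.mk'_surjective (Subgroup.center L)) hkk.le (by rw [hkk]; exact hpk)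
    (by rw [hkk]; exact hrk) (Or.inl hd)
  rw [hcen, Subgroup.mem_bot] at hx
  exact hker x hx

end Vale.Agent.P180.R2.H259.Cen
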