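import Vale.Agent.P180.R2.H854.TP
import Mathlib.LinearAlgebra.Transvection.Basic

/-!
P180: toral elements and root elements of the isometry groups; the element swapping two hyperbolic
pairs.
-/

set_option linter.all false

namespace Vale.Agent.P180.R2.H259.Cen

open Module Vale.Agent.P180 Vale.Agent.P180.R2.H799 Vale.Agent.P180.R2.H799.BN
  Vale.Agent.P180.R2.H854

variable {K E : Type*} [Field K] [AddCommGroup E] [Module K E] (Φ : HForm K E)

/-- `x ↦ x + c B(x, w) v + d B(x, v) w` -/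
def gEnd (v w : E) (c d : K) : End K E :=
  LinearMap.transvection (c • Φ.fn w) v * LinearMap.transvection (d • Φ.fn v) w

theorem gEnd_apply {v w : E} (hw : Φ.B w w = 0) (c d : K) (x : E) :
    gEnd Φ v w c d x = x + (c * Φ.B x w) • v + (d * Φ.B x v) • w := by
  have h1 : gEnd Φ v w c d x = (x + (d * Φ.B x v) • w) +
      (c * Φ.B (x + (d * Φ.B x v) • w) w) • v := rfl
  rw [h1, Φ.add_left, Φ.smul_left, hw, mul_zero, add_zero]
  abel

theorem det_gEnd [FiniteDimensional K E] {v w : E} (c d : K)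
    (h : (1 + c * Φ.B v w) * (1 + d * Φ.B w v) = 1) : LinearMap.det (gEnd Φ v w c d) = 1 := by
  rw [gEnd, map_mul, LinearMap.transvection.det, LinearMap.transvection.det]
  exact h

theorem gEnd_iso {v w : E} (hv : Φ.B v v = 0) (hw : Φ.B w w = 0) {c d : K}
    (h1 : c * Φ.ε + Φ.θ d + c * Φ.θ d * Φ.B v w = 0)
    (h2 : d * Φ.ε + Φ.θ c + d * Φ.θ c * Φ.B w v = 0) (x y : E) :
    Φ.B (gEnd Φ v w c d x) (gEnd Φ v w c d y) = Φ.B x y := by
  rw [gEnd_apply Φ hw, gEnd_apply Φ hw]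
  simp only [Φ.add_left, Φ.add_right, Φ.smul_left, Φ.smul_right, map_mul, hv, hw]
  rw [Φ.symm y v, Φ.symm y w]
  have e1 : Φ.θ (Φ.B y w) = Φ.θ (Φ.B y w) := rfl
  linear_combination (Φ.B x w * Φ.θ (Φ.B y v)) * h1 + (Φ.B x v * Φ.θ (Φ.B y w)) * h2

/-- hyperbolic pairs -/
structure HP (e f : E) : Prop where
  ee : Φ.B e e = 0
  ff : Φ.B f f = 0
  ef : Φ.B e f = 1

variable {Φ}

theorem HP.fe {e f : E} (h : HP Φ e f) : Φ.B f e = Φ.ε := by
  rw [Φ.symm e f, h.ef, map_one, mul_one]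

theorem eps_ne : Φ.ε ≠ 0 := by
  intro h
  have h1 := Φ.εε
  rw [h, zero_mul] at h1
  exact zero_ne_one h1

section

variable [FiniteDimensional K E]

theorem det_t {e f : E} (h : HP Φ e f) {a : K} (ha : a ≠ 0) :
    (1 + (a - 1) * Φ.B e f) * (1 + ((a⁻¹ - 1) * Φ.ε⁻¹) * Φ.B f e) = 1 := by
  rw [h.ef, h.fe, mul_assoc, inv_mul_cancel₀ (eps_ne (Φ := Φ))]
  rw [mul_one, mul_one, add_sub_cancel, add_sub_cancel, mul_inv_cancel₀ ha]

/-- The element `e ↦ a e`, `f ↦ a⁻¹ f`. -/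
noncomputable def tt {e f : E} (h : HP Φ e f) {a : K} (ha : a ≠ 0) : SpecialLinearGroup K E :=
  mkSL (gEnd Φ e f (a - 1) ((a⁻¹ - 1) * Φ.ε⁻¹)) (det_gEnd Φ _ _ (det_t h ha))

theorem tt_apply {e f : E} (h : HP Φ e f) {a : K} (ha : a ≠ 0) (x : E) :
    tt h ha x = x + ((a - 1) * Φ.B x f) • e + (((a⁻¹ - 1) * Φ.ε⁻¹) * Φ.B x e) • f :=
  gEnd_apply Φ h.ff _ _ x

theorem tt_mem_Iso {e f : E} (h : HP Φ e f) {a : K} (ha : a ≠ 0) (hθ : Φ.θ a = a) :
    tt h ha ∈ Φ.Iso := by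
  have h0 := eps_ne (Φ := Φ)
  have h1 : Φ.θ Φ.ε = Φ.ε⁻¹ := eq_inv_of_mul_eq_one_right Φ.εε
  refine gEnd_iso Φ h.ee h.ff ?_ ?_
  · rw [map_mul, map_sub, map_inv₀, map_one, map_inv₀, hθ, h1, inv_inv, h.ef]
    field_simp
    ring
  · rw [map_sub, map_one, hθ, h.fe]
    field_simp
    ring

/-- The root element `e ↦ e + c e'`, `f' ↦ f' - θ(c) f`. -/
noncomputable def uu {e' f : E} (h : Φ.B e' f = 0) (c : K) : SpecialLinearGroup K E :=
  mkSL (gEnd Φ e' f c (-(Φ.ε⁻¹ * Φ.θ c))) (det_gEnd Φ _ _ (by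
    rw [h, Φ.eq_zero_comm h, mul_zero, mul_zero, add_zero, mul_one]))

theorem uu_apply {e' f : E} (h : Φ.B e' f = 0) (hf : Φ.B f f = 0) (c : K) (x : E) :
    uu h c x = x + (c * Φ.B x f) • e' + (-(Φ.ε⁻¹ * Φ.θ c) * Φ.B x e') • f :=
  gEnd_apply Φ hf _ _ x

theorem uu_mem_Iso {e' f : E} (h : Φ.B e' f = 0) (he : Φ.B e' e' = 0) (hf : Φ.B f f = 0) (c : K) :
    uu h c ∈ Φ.Iso := by
  have h0 := eps_ne (Φ := Φ)
  have h1 : Φ.θ Φ.ε = Φ.ε⁻¹ := eq_inv_of_mul_eq_one_right Φ.εε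
  refine gEnd_iso Φ he hf ?_ ?_
  · rw [h, mul_zero, add_zero, map_neg, map_mul, map_inv₀, Φ.θθ, h1, inv_inv]
    ring
  · rw [Φ.eq_zero_comm h, mul_zero, add_zero]
    field_simp
    ring

theorem uu_add {e' f : E} (h : Φ.B e' f = 0) (he : Φ.B e' e' = 0) (hf : Φ.B f f = 0) (c d : K) :
    uu h c * uu h d = uu h (c + d) := by
  apply toEnd_injective
  apply LinearMap.ext
  intro x
  have h1 : toEnd (uu h c * uu h d) x = uu h c (uu h d x) := rfl
  have h2 : toEnd (uu h (c + d)) x = uu h (c + d) x := rfl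
  have h3 := Φ.eq_zero_comm h
  rw [h1, h2, uu_apply h hf, uu_apply h hf, uu_apply h hf]
  simp only [Φ.add_left, Φ.smul_left, h, h3, he, hf, mul_zero, add_zero, map_add]
  module

theorem uu_zero {e' f : E} (h : Φ.B e' f = 0) (hf : Φ.B f f = 0) : uu h (0 : K) = 1 := by
  apply toEnd_injective
  apply LinearMap.ext
  intro x
  have h2 : toEnd (uu h (0 : K)) x = uu h 0 x := rfl
  rw [h2, uu_apply h hf, map_zero, mul_zero, neg_zero, zero_mul, zero_smul, zero_mul, zero_smul,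
    add_zero, add_zero]
  rfl

theorem uu_pow {e' f : E} (h : Φ.B e' f = 0) (he : Φ.B e' e' = 0) (hf : Φ.B f f = 0) (c : K)
    (m : ℕ) : uu h c ^ m = uu h ((m : K) * c) := by
  induction m with
  | zero => rw [pow_zero, Nat.cast_zero, zero_mul, uu_zero h hf]
  | succ m ih => rw [pow_succ, ih, uu_add h he hf, Nat.cast_succ, add_mul, one_mul]

variable [Finite K] {X : Subgroup (SpecialLinearGroup K E)}

theorem uu_mem_X (hgood : Φ.GoodX X) (hX2 : X.relIndex Φ.Iso ∣ 2) {e' f : E} (h : Φ.B e' f = 0)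
    (he : Φ.B e' e' = 0) (hf : Φ.B f f = 0) (c : K) : uu h c ∈ X := by
  have h1 := uu_mem_Iso h he hf c
  rcases hgood with hodd | ⟨hX, -⟩
  · refine mem_of_relIndex_dvd_two hX2 h1 hodd ?_
    have _ := Fintype.ofFinite K
    rw [uu_pow h he hf, Nat.card_eq_fintype_card, FiniteField.cast_card_eq_zero, zero_mul,
      uu_zero h hf]
  · rw [hX]
    exact h1

/-- The element swapping two orthogonal hyperbolic pairs. -/
theorem exists_swap (hgood : Φ.GoodX X) (hX2 : X.relIndex Φ.Iso ∣ 2) {e f e' f' : E}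
    (h : HP Φ e f) (h' : HP Φ e' f') (hee : Φ.B e e' = 0) (hef : Φ.B e f' = 0)
    (hfe : Φ.B f e' = 0) (hff : Φ.B f f' = 0) :
    ∃ s ∈ X, s e = e' ∧ s f = f' ∧ s e' = -e ∧ s f' = -f := by
  have hee' := Φ.eq_zero_comm hee
  have hef' := Φ.eq_zero_comm hef
  have hfe' := Φ.eq_zero_comm hfe
  have hff' := Φ.eq_zero_comm hff
  have h0 := eps_ne (Φ := Φ)
  -- `u : e ↦ e + c e'`, `f' ↦ f' - c f`; `w : e' ↦ e' + c e`, `f ↦ f - c f'`
  have u1 : ∀ c : K, uu hfe' c e = e + c • e' := by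
    intro c
    rw [uu_apply hfe' h.ff, h.ef, hee, mul_one, mul_zero, zero_smul, add_zero]
  have u2 : ∀ c : K, uu hfe' c e' = e' := by
    intro c
    rw [uu_apply hfe' h.ff, hfe', h'.ee, mul_zero, mul_zero, zero_smul, zero_smul, add_zero,
      add_zero]
  have u3 : ∀ c : K, uu hfe' c f = f := by
    intro c
    rw [uu_apply hfe' h.ff, h.ff, hfe, mul_zero, mul_zero, zero_smul, zero_smul, add_zero,
      add_zero]
  have u4 : ∀ c : K, uu hfe' c f' = f' - Φ.θ c • f := by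
    intro c
    rw [uu_apply hfe' h.ff, hff', h'.fe, mul_zero, zero_smul, add_zero]
    have e1 : -(Φ.ε⁻¹ * Φ.θ c) * Φ.ε = -Φ.θ c := by field_simp
    rw [e1, neg_smul, sub_eq_add_neg]
  have w1 : ∀ c : K, uu hef c e' = e' + c • e := by
    intro c
    rw [uu_apply hef h'.ff, h'.ef, hee', mul_one, mul_zero, zero_smul, add_zero]
  have w2 : ∀ c : K, uu hef c e = e := by
    intro c
    rw [uu_apply hef h'.ff, hef, h.ee, mul_zero, mul_zero, zero_smul, zero_smul, add_zero,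
      add_zero]
  have w3 : ∀ c : K, uu hef c f' = f' := by
    intro c
    rw [uu_apply hef h'.ff, h'.ff, hef', mul_zero, mul_zero, zero_smul, zero_smul, add_zero,
      add_zero]
  have w4 : ∀ c : K, uu hef c f = f - Φ.θ c • f' := by
    intro c
    rw [uu_apply hef h'.ff, hff, h.fe, mul_zero, zero_smul, add_zero]
    have e1 : -(Φ.ε⁻¹ * Φ.θ c) * Φ.ε = -Φ.θ c := by field_simp
    rw [e1, neg_smul, sub_eq_add_neg]
  have hadd : ∀ (g : SpecialLinearGroup K E) (x y : E), g (x + y) = g x + g y := fun g x y =>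
    map_add (g : E ≃ₗ[K] E) x y
  have hneg : ∀ (g : SpecialLinearGroup K E) (x : E), g (-x) = -g x := fun g x =>
    map_neg (g : E ≃ₗ[K] E) x
  refine ⟨uu hfe' 1 * uu hef (-1) * uu hfe' 1, X.mul_mem (X.mul_mem
    (uu_mem_X hgood hX2 hfe' h'.ee h.ff 1) (uu_mem_X hgood hX2 hef h.ee h'.ff (-1)))
    (uu_mem_X hgood hX2 hfe' h'.ee h.ff 1), ?_, ?_, ?_, ?_⟩
  · change uu hfe' 1 (uu hef (-1) (uu hfe' 1 e)) = e'
    rw [u1, one_smul, hadd, w2, w1, hadd, u1, hadd, u2, neg_smul, one_smul, one_smul, hneg, u1,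
      one_smul]
    abel
  · change uu hfe' 1 (uu hef (-1) (uu hfe' 1 f)) = f'
    rw [u3, w4, map_neg, map_one, neg_smul, one_smul, sub_neg_eq_add, hadd, u3, u4, map_one,
      one_smul]
    abel
  · change uu hfe' 1 (uu hef (-1) (uu hfe' 1 e')) = -e
    rw [u2, w1, neg_smul, one_smul, hadd, hneg, u2, u1, one_smul]
    abel
  · change uu hfe' 1 (uu hef (-1) (uu hfe' 1 f')) = -f
    rw [u4, map_one, one_smul, sub_eq_add_neg, hadd, hneg, w3, w4, map_neg, map_one, neg_smul,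
      one_smul, sub_neg_eq_add]
    have e1 : f' + -(f + f') = -f := by abel
    rw [e1, hneg, u3]

/-- Conjugates of the toral elements. -/
theorem conj_tt {s : SpecialLinearGroup K E} (hs : s ∈ Φ.Iso) {e f e' f' : E} (h : HP Φ e f)
    (h' : HP Φ e' f') {c c' : K} (hc : c * Φ.θ c' = 1) (hc' : c' * Φ.θ c = 1)
    (h1 : s e = c • e') (h2 : s f = c' • f') {a : K}
    (ha : a ≠ 0) : s * tt h ha * s⁻¹ = tt h' ha := by
  apply toEnd_injective
  apply LinearMap.ext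
  intro x
  obtain ⟨x, rfl⟩ : ∃ y, s y = x := ⟨s⁻¹ x, by
    have e1 : (s * s⁻¹) x = s (s⁻¹ x) := rfl
    rw [← e1, mul_inv_cancel]
    rfl⟩
  have e1 : toEnd (s * tt h ha * s⁻¹) (s x) = s (tt h ha ((s⁻¹ * s) x)) := rfl
  have e2 : toEnd (tt h' ha) (s x) = tt h' ha (s x) := rfl
  have e3 : (s⁻¹ * s) x = x := by rw [inv_mul_cancel]; rfl
  have hadd : ∀ (g : SpecialLinearGroup K E) (x y : E), g (x + y) = g x + g y := fun g x y =>
    map_add (g : E ≃ₗ[K] E) x y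
  have hsm : ∀ (g : SpecialLinearGroup K E) (c : K) (x : E), g (c • x) = c • g x := fun g c x =>
    map_smul (g : E ≃ₗ[K] E) c x
  have e4 : Φ.B x f = Φ.θ c' * Φ.B (s x) f' := by rw [← hs x f, h2, Φ.smul_right]
  have e5 : Φ.B x e = Φ.θ c * Φ.B (s x) e' := by rw [← hs x e, h1, Φ.smul_right]
  rw [e1, e2, e3, tt_apply, tt_apply, hadd, hadd, hsm, hsm, h1, h2, smul_smul, smul_smul, e4, e5]
  have e6 : (a - 1) * (Φ.θ c' * Φ.B (s x) f') * c = (a - 1) * Φ.B (s x) f' := by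
    linear_combination ((a - 1) * Φ.B (s x) f') * hc
  have e7 : (a⁻¹ - 1) * Φ.ε⁻¹ * (Φ.θ c * Φ.B (s x) e') * c' =
      (a⁻¹ - 1) * Φ.ε⁻¹ * Φ.B (s x) e' := by
    linear_combination ((a⁻¹ - 1) * Φ.ε⁻¹ * Φ.B (s x) e') * hc'
  rw [e6, e7]

omit [Finite K] in
theorem tt_e {e f : E} (h : HP Φ e f) {a : K} (ha : a ≠ 0) : tt h ha e = a • e := by
  rw [tt_apply, h.ef, h.ee, mul_one, mul_zero, zero_smul, add_zero, sub_smul, one_smul]
  abel

omit [Finite K] in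
theorem tt_f {e f : E} (h : HP Φ e f) {a : K} (ha : a ≠ 0) : tt h ha f = a⁻¹ • f := by
  rw [tt_apply, h.ff, h.fe, mul_zero, zero_smul, add_zero, mul_assoc,
    inv_mul_cancel₀ (eps_ne (Φ := Φ)), mul_one, sub_smul, one_smul]
  abel

omit [Finite K] in
theorem tt_fix {e f : E} (h : HP Φ e f) {a : K} (ha : a ≠ 0) {u : E} (hue : Φ.B u e = 0)
    (huf : Φ.B u f = 0) : tt h ha u = u := by
  rw [tt_apply, hue, huf, mul_zero, mul_zero, zero_smul, zero_smul, add_zero, add_zero]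

omit [Finite K] in
theorem tt_mul {e f : E} (h : HP Φ e f) {a b : K} (ha : a ≠ 0) (hb : b ≠ 0) :
    tt h ha * tt h hb = tt h (mul_ne_zero ha hb) := by
  apply toEnd_injective
  apply LinearMap.ext
  intro x
  have h0 := eps_ne (Φ := Φ)
  have e1 : toEnd (tt h ha * tt h hb) x = tt h ha (tt h hb x) := rfl
  have e2 : toEnd (tt h (mul_ne_zero ha hb)) x = tt h (mul_ne_zero ha hb) x := rfl
  have e3 : Φ.B (tt h hb x) f = b * Φ.B x f := by
    rw [tt_apply, Φ.add_left, Φ.add_left, Φ.smul_left, Φ.smul_left, h.ef, h.ff]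
    ring
  have e4 : Φ.B (tt h hb x) e = b⁻¹ * Φ.B x e := by
    rw [tt_apply, Φ.add_left, Φ.add_left, Φ.smul_left, Φ.smul_left, h.ee, h.fe]
    field_simp
    ring
  rw [e1, e2, tt_apply h ha, e3, e4, tt_apply h hb, tt_apply, mul_inv]
  have e5 : (a * b - 1) * Φ.B x f = (b - 1) * Φ.B x f + (a - 1) * (b * Φ.B x f) := by ring
  have e6 : (a⁻¹ * b⁻¹ - 1) * Φ.ε⁻¹ * Φ.B x e =
      (b⁻¹ - 1) * Φ.ε⁻¹ * Φ.B x e + (a⁻¹ - 1) * Φ.ε⁻¹ * (b⁻¹ * Φ.B x e) := by ring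
  rw [e5, e6, add_smul, add_smul]
  abel

omit [Finite K] in
theorem tt_one {e f : E} (h : HP Φ e f) : tt h (one_ne_zero (α := K)) = 1 := by
  apply toEnd_injective
  apply LinearMap.ext
  intro x
  have e2 : toEnd (tt h (one_ne_zero (α := K))) x = tt h one_ne_zero x := rfl
  rw [e2, tt_apply, inv_one, sub_self, zero_mul, zero_smul, zero_mul, zero_mul, zero_smul,
    add_zero, add_zero]
  rfl

omit [Finite K] in
theorem tt_congr {e f : E} (h : HP Φ e f) {a b : K} (ha : a ≠ 0) (hb : b ≠ 0) (hab : a = b) :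
    tt h ha = tt h hb := by
  subst hab
  rfl

omit [Finite K] in
theorem tt_pow {e f : E} (h : HP Φ e f) {a : K} (ha : a ≠ 0) (m : ℕ) :
    tt h ha ^ m = tt h (pow_ne_zero m ha) := by
  induction m with
  | zero => rw [pow_zero, ← tt_one h]; exact tt_congr h _ _ (pow_zero a).symm
  | succ m ih => rw [pow_succ, ih, tt_mul]; exact tt_congr h _ _ (pow_succ a m).symm

omit [Finite K] in
theorem tt_pow_one {e f : E} (h : HP Φ e f) {a : K} (ha : a ≠ 0) {m : ℕ} (hm : a ^ m = 1) :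
    tt h ha ^ m = 1 := by
  rw [tt_pow, ← tt_one h]
  exact tt_congr h _ _ hm

end

end Vale.Agent.P180.R2.H259.Cen
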