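import Vale.Agent.P180.R2.H259.Cen.C1

/-!
P180: commuting lifts to central extensions; `p`-elements of perfect groups with abelian Sylow
`p`-subgroups.
-/

set_option linter.all false

namespace Vale.Agent.P180.R2.H259.Cen

section Cm

variable {X T L : Type*} [Group X] [Group T] [Group L] (π : X →* T) (φ : L →* T)

/-- The lifts of `x` and `y` commute. -/
def Cm (x y : X) : Prop := ∀ a b : L, φ a = π x → φ b = π y → a * b = b * a

variable {π φ}

theorem Cm.symm {x y : X} (h : Cm π φ x y) : Cm π φ y x := fun a b ha hb => (h b a hb ha).symm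

variable (hφ : Function.Surjective φ) (hk : φ.ker ≤ Subgroup.center L)

include hk in
theorem Cm.self (x : X) : Cm π φ x x := by
  intro a b ha hb
  have h1 : a * b⁻¹ ∈ φ.ker := by
    rw [MonoidHom.mem_ker, map_mul, map_inv, ha, hb, mul_inv_cancel]
  have h2 := Subgroup.mem_center_iff.mp (hk h1) b
  calc a * b = (a * b⁻¹) * b * b := by group
    _ = b * (a * b⁻¹) * b := by rw [h2]
    _ = b * a := by group

include hφ in
theorem Cm.mul {x x' y : X} (h : Cm π φ x y) (h' : Cm π φ x' y) : Cm π φ (x * x') y := by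
  intro a b ha hb
  obtain ⟨a₁, ha₁⟩ := hφ (π x)
  have ha₂ : φ (a₁⁻¹ * a) = π x' := by
    rw [map_mul, map_inv, ha₁, ha, map_mul, inv_mul_cancel_left]
  have h1 := h a₁ b ha₁ hb
  have h2 := h' (a₁⁻¹ * a) b ha₂ hb
  calc a * b = a₁ * ((a₁⁻¹ * a) * b) := by group
    _ = a₁ * (b * (a₁⁻¹ * a)) := by rw [h2]
    _ = (a₁ * b) * (a₁⁻¹ * a) := by group
    _ = (b * a₁) * (a₁⁻¹ * a) := by rw [h1]
    _ = b * a := by group

theorem Cm.inv {x y : X} (h : Cm π φ x y) : Cm π φ x⁻¹ y := by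
  intro a b ha hb
  have h1 := h a⁻¹ b (by rw [map_inv, ha, map_inv, inv_inv]) hb
  calc a * b = a * (b * a⁻¹) * a := by group
    _ = a * (a⁻¹ * b) * a := by rw [h1]
    _ = b * a := by group

include hk in
theorem Cm.one (y : X) : Cm π φ 1 y := by
  intro a b ha hb
  have h1 : a ∈ φ.ker := by rw [MonoidHom.mem_ker, ha, map_one]
  exact (Subgroup.mem_center_iff.mp (hk h1) b).symm

/-- the elements whose lifts commute with those of `y` -/
def CmS (y : X) : Subgroup X where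
  carrier := {x | Cm π φ x y}
  mul_mem' := fun ha hb => Cm.mul hφ ha hb
  one_mem' := Cm.one hk y
  inv_mem' := fun ha => Cm.inv ha

include hφ hk in
theorem Cm.closure {S : Set X} (hS : ∀ x ∈ S, ∀ y ∈ S, Cm π φ x y) :
    ∀ x ∈ Subgroup.closure S, ∀ y ∈ Subgroup.closure S, Cm π φ x y := by
  have h1 : ∀ y ∈ S, Subgroup.closure S ≤ CmS (π := π) hφ hk y := by
    intro y hy
    rw [Subgroup.closure_le]
    intro x hx
    exact hS x hx y hy
  have h2 : ∀ x ∈ Subgroup.closure S, Subgroup.closure S ≤ CmS (π := π) hφ hk x := by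
    intro x hx
    rw [Subgroup.closure_le]
    intro y hy
    exact Cm.symm (h1 y hy hx)
  exact fun x hx y hy => h2 y hy hx

theorem comm_pow {a b c : L} (hc : c ∈ Subgroup.center L) (h : a * b = c * (b * a)) (m : ℕ) :
    a ^ m * b = c ^ m * (b * a ^ m) := by
  induction m with
  | zero => rw [pow_zero, pow_zero, one_mul, one_mul, mul_one]
  | succ m ih =>
    have hc' := Subgroup.mem_center_iff.mp hc
    have hcm := Subgroup.mem_center_iff.mp (Subgroup.pow_mem _ hc m)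
    calc a ^ (m + 1) * b = a ^ m * (a * b) := by rw [pow_succ, mul_assoc]
      _ = a ^ m * (c * (b * a)) := by rw [h]
      _ = (a ^ m * c) * (b * a) := by group
      _ = (c * a ^ m) * (b * a) := by rw [hc']
      _ = c * (a ^ m * b) * a := by group
      _ = c * (c ^ m * (b * a ^ m)) * a := by rw [ih]
      _ = c ^ (m + 1) * (b * a ^ (m + 1)) := by rw [pow_succ' c, pow_succ a]; group

include hφ hk in
/-- **The swap.** -/
theorem Cm.swap {t t' s : X} (h1 : s * t * s⁻¹ = t') (h2 : s * t' * s⁻¹ = t)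
    (htt : t * t' = t' * t) {m : ℕ} (hm : Odd m) (htm : t ^ m = 1) : Cm π φ t t' := by
  obtain ⟨u, hu⟩ := hφ (π t)
  obtain ⟨u', hu'⟩ := hφ (π t')
  obtain ⟨w, hw⟩ := hφ (π s)
  set c := u * u' * u⁻¹ * u'⁻¹ with hc
  have hck : c ∈ φ.ker := by
    rw [MonoidHom.mem_ker, hc, map_mul, map_mul, map_mul, map_inv, map_inv, hu, hu', ← map_inv,
      ← map_inv, ← map_mul, ← map_mul, ← map_mul, htt]
    have e1 : t' * t * t⁻¹ * t'⁻¹ = 1 := by group
    rw [e1, map_one]
  have hcc := hk hck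
  have hcm := Subgroup.mem_center_iff.mp hcc
  -- `w u w⁻¹ = z u'`
  have hz : w * u * w⁻¹ * u'⁻¹ ∈ φ.ker := by
    rw [MonoidHom.mem_ker, map_mul, map_mul, map_mul, map_inv, map_inv, hu, hu', hw, ← map_inv,
      ← map_inv, ← map_mul, ← map_mul, ← map_mul, h1, mul_inv_cancel, map_one]
  have hz' : w * u' * w⁻¹ * u⁻¹ ∈ φ.ker := by
    rw [MonoidHom.mem_ker, map_mul, map_mul, map_mul, map_inv, map_inv, hu, hu', hw, ← map_inv,
      ← map_inv, ← map_mul, ← map_mul, ← map_mul, h2, mul_inv_cancel, map_one]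
  obtain ⟨z, hzz⟩ : ∃ z, z = w * u * w⁻¹ * u'⁻¹ := ⟨_, rfl⟩
  obtain ⟨z', hzz'⟩ : ∃ z', z' = w * u' * w⁻¹ * u⁻¹ := ⟨_, rfl⟩
  rw [← hzz] at hz
  rw [← hzz'] at hz'
  have hzc := Subgroup.mem_center_iff.mp (hk hz)
  have hzc' := Subgroup.mem_center_iff.mp (hk hz')
  have e1 : w * u * w⁻¹ = z * u' := by rw [hzz]; group
  have e2 : w * u' * w⁻¹ = z' * u := by rw [hzz']; group
  have h3 : c = u' * u * u'⁻¹ * u⁻¹ := by
    calc c = w * c * w⁻¹ := by rw [hcm w, mul_inv_cancel_right]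
      _ = (w * u * w⁻¹) * (w * u' * w⁻¹) * (w * u * w⁻¹)⁻¹ * (w * u' * w⁻¹)⁻¹ := by
        rw [hc]; group
      _ = (z * u') * (z' * u) * (z * u')⁻¹ * (z' * u)⁻¹ := by rw [e1, e2]
      _ = z * (u' * z') * u * u'⁻¹ * z⁻¹ * u⁻¹ * z'⁻¹ := by group
      _ = z * (z' * u') * u * u'⁻¹ * z⁻¹ * u⁻¹ * z'⁻¹ := by rw [hzc' u']
      _ = z * z' * (u' * u * u'⁻¹) * z⁻¹ * u⁻¹ * z'⁻¹ := by group
      _ = z * z' * z⁻¹ * (u' * u * u'⁻¹) * u⁻¹ * z'⁻¹ := by
        have e3 : (u' * u * u'⁻¹) * z⁻¹ = z⁻¹ * (u' * u * u'⁻¹) := by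
          have e4 := hzc (u' * u * u'⁻¹)
          calc (u' * u * u'⁻¹) * z⁻¹ = z⁻¹ * (z * (u' * u * u'⁻¹)) * z⁻¹ := by group
            _ = z⁻¹ * ((u' * u * u'⁻¹) * z) * z⁻¹ := by rw [e4]
            _ = _ := by group
        calc z * z' * (u' * u * u'⁻¹) * z⁻¹ * u⁻¹ * z'⁻¹
            = z * z' * ((u' * u * u'⁻¹) * z⁻¹) * u⁻¹ * z'⁻¹ := by group
          _ = z * z' * (z⁻¹ * (u' * u * u'⁻¹)) * u⁻¹ * z'⁻¹ := by rw [e3]
          _ = _ := by group
      _ = z' * (u' * u * u'⁻¹ * u⁻¹) * z'⁻¹ := by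
        have e5 : z * z' * z⁻¹ = z' := by rw [hzc' z, mul_inv_cancel_right]
        rw [e5]; group
      _ = u' * u * u'⁻¹ * u⁻¹ := by
        rw [← hzc' (u' * u * u'⁻¹ * u⁻¹), mul_inv_cancel_right]
  have h4 : c * c = 1 := by
    nth_rewrite 1 [h3]
    rw [hc]
    group
  have h5 : u * u' = c * (u' * u) := by rw [hc]; group
  have h6 := comm_pow hcc h5 m
  have h7 : u ^ m ∈ φ.ker := by rw [MonoidHom.mem_ker, map_pow, hu, ← map_pow, htm, map_one]
  have h8 := Subgroup.mem_center_iff.mp (hk h7) u'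
  rw [h8, right_eq_mul] at h6
  have h9 : c = 1 := by
    obtain ⟨j, rfl⟩ := hm
    rw [pow_succ, pow_mul, sq, h4, one_pow, one_mul] at h6
    exact h6
  intro a b ha hb
  rw [h9, one_mul] at h5
  have ea : a * u⁻¹ ∈ φ.ker := by rw [MonoidHom.mem_ker, map_mul, map_inv, ha, hu, mul_inv_cancel]
  have eb : b * u'⁻¹ ∈ φ.ker := by
    rw [MonoidHom.mem_ker, map_mul, map_inv, hb, hu', mul_inv_cancel]
  obtain ⟨y, hy⟩ : ∃ y, y = a * u⁻¹ := ⟨_, rfl⟩
  obtain ⟨y', hy'⟩ : ∃ y', y' = b * u'⁻¹ := ⟨_, rfl⟩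
  rw [← hy] at ea
  rw [← hy'] at eb
  have hyc := Subgroup.mem_center_iff.mp (hk ea)
  have hyc' := Subgroup.mem_center_iff.mp (hk eb)
  have e6 : a = y * u := by rw [hy]; group
  have e7 : b = y' * u' := by rw [hy']; group
  rw [e6, e7]
  calc y * u * (y' * u') = y * (u * y') * u' := by group
    _ = y * (y' * u) * u' := by rw [hyc' u]
    _ = (y * y') * (u * u') := by group
    _ = (y' * y) * (u' * u) := by rw [hyc' y, h5]
    _ = y' * (y * u') * u := by group
    _ = y' * (u' * y) * u := by rw [hyc u']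
    _ = y' * u' * (y * u) := by group

end Cm

/-- In a finite perfect group with an abelian Sylow `p`-subgroup the centre has order prime to
`p`. -/
theorem not_dvd_center_of_comm {p : ℕ} [Fact p.Prime] {L : Type*} [Group L] [Finite L]
    (hL : commutator L = ⊤) (P : Sylow p L) (hP : ∀ x ∈ P, ∀ y ∈ P, x * y = y * x) :
    ¬ p ∣ Nat.card (Subgroup.center L) := by
  classical
  have hp : p.Prime := Fact.out
  intro hd
  obtain ⟨z, hz⟩ := exists_prime_orderOf_dvd_card' p hd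
  have hzp : (z : L) ^ p = 1 := by
    have h1 : z ^ p = 1 := by rw [← hz]; exact pow_orderOf_eq_one z
    exact congrArg Subtype.val h1
  have hzc : ∀ g : L, g * z = z * g := Subgroup.mem_center_iff.mp z.2
  -- `z` belongs to `P`
  have hzP : (z : L) ∈ P := by
    have h1 : IsPGroup p (Subgroup.zpowers (z : L)) := by
      rw [IsPGroup.iff_card, Nat.card_zpowers]
      exact ⟨1, by rw [Subgroup.orderOf_coe, hz, pow_one]⟩
    obtain ⟨Q, hQ⟩ := h1.exists_le_sylow
    obtain ⟨g, hg⟩ := MulAction.exists_smul_eq L Q P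
    have h2 : (z : L) ∈ (Q : Subgroup L) := hQ (Subgroup.mem_zpowers _)
    have h3 : g * (z : L) * g⁻¹ ∈ (g • Q : Sylow p L) := by
      change _ ∈ ((g • Q : Sylow p L) : Subgroup L)
      rw [Sylow.coe_subgroup_smul, ← MulAut.conj_apply]
      exact Subgroup.smul_mem_pointwise_smul _ (MulAut.conj g) _ h2
    rw [hg, hzc g, mul_inv_cancel_right] at h3
    exact h3
  letI : CommGroup P := { (inferInstance : Group P) with
    mul_comm := fun a b => Subtype.ext (hP a.1 a.2 b.1 b.2) }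
  let τ : L →* P := MonoidHom.transfer (H := (P : Subgroup L)) (MonoidHom.id P)
  have h1 : τ z = 1 := by
    have h2 : commutator L ≤ τ.ker := Abelianization.commutator_subset_ker τ
    rw [hL] at h2
    exact MonoidHom.mem_ker.mp (h2 (Subgroup.mem_top _))
  have h2 := MonoidHom.transfer_eq_pow (H := (P : Subgroup L)) (MonoidHom.id P) (z : L) (by
    intro j g₀ _
    have h3 : g₀ * (z : L) ^ j = (z : L) ^ j * g₀ :=
      Subgroup.mem_center_iff.mp (Subgroup.pow_mem _ z.2 j) g₀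
    rw [mul_assoc, ← h3, inv_mul_cancel_left])
  have h3 : (z : L) ^ (P : Subgroup L).index = 1 := by
    have h4 : ((τ z : P) : L) = (z : L) ^ (P : Subgroup L).index := by
      change ((MonoidHom.transfer (H := (P : Subgroup L)) (MonoidHom.id P) (z : L) : P) : L) = _
      rw [h2]
      rfl
    rw [← h4, h1]
    rfl
  have h4 : p ∣ (P : Subgroup L).index := by
    have h5 : orderOf (z : L) = p := by rw [Subgroup.orderOf_coe, hz]
    have h6 := orderOf_dvd_of_pow_eq_one h3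
    rwa [h5] at h6
  exact P.not_dvd_index h4

end Vale.Agent.P180.R2.H259.Cen
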