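import Vale.Agent.P180.R2.H259.Cen.C3

/-!
P180: the `p`-part of the Schur multipliers of the classical groups of dimension less than `p`.
-/

set_option linter.all false

namespace Vale.Agent.P180.R2.H259.Cen

open Module Vale.Agent.P180 Vale.Agent.P180.R2.H799 Vale.Agent.P180.R2.H799.BN
  Vale.Agent.P180.R2.H854

variable {K E : Type} [Field K] [AddCommGroup E] [Module K E] {Φ : HForm K E}
  [FiniteDimensional K E] [Finite K] {X : Subgroup (SpecialLinearGroup K E)}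

omit [FiniteDimensional K E] in
/-- a generator of the roots of unity of `p`-power order -/
theorem exists_gen_root (p : ℕ) [Fact p.Prime] : ∃ ω : K, ω ≠ 0 ∧ (∃ m, ω ^ p ^ m = 1) ∧
    ∀ c : K, (∃ m, c ^ p ^ m = 1) → ∃ k : ℕ, c = ω ^ k := by
  classical
  let P : Subgroup Kˣ :=
    { carrier := {u | ∃ m, u ^ p ^ m = 1}
      one_mem' := ⟨0, one_pow _⟩
      mul_mem' := by
        rintro a b ⟨m, hm⟩ ⟨m', hm'⟩
        refine ⟨m + m', ?_⟩
        have e1 : a ^ p ^ (m + m') = 1 := by rw [pow_add, pow_mul, hm, one_pow]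
        have e2 : b ^ p ^ (m + m') = 1 := by rw [add_comm, pow_add, pow_mul, hm', one_pow]
        rw [mul_pow, e1, e2, one_mul]
      inv_mem' := by
        rintro a ⟨m, hm⟩
        exact ⟨m, by rw [inv_pow, hm, inv_one]⟩ }
  obtain ⟨⟨w, hw⟩, hgen⟩ := IsCyclic.exists_generator (α := P)
  obtain ⟨m, hm⟩ := hw
  refine ⟨w, w.ne_zero, ⟨m, by rw [← Units.val_pow_eq_pow_val, hm, Units.val_one]⟩, ?_⟩
  rintro c ⟨m', hm'⟩
  have hc0 : c ≠ 0 := by
    rintro rfl
    rw [zero_pow (pow_ne_zero _ (Fact.out : p.Prime).ne_zero)] at hm'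
    exact zero_ne_one hm'
  have hcP : Units.mk0 c hc0 ∈ P := ⟨m', Units.ext (by
    rw [Units.val_pow_eq_pow_val, Units.val_mk0, hm', Units.val_one])⟩
  have h1 := hgen ⟨_, hcP⟩
  rw [← mem_powers_iff_mem_zpowers] at h1
  obtain ⟨k, hk⟩ := h1
  refine ⟨k, ?_⟩
  have h2 := congrArg (fun u : P => ((u : Kˣ) : K)) hk
  have h3 : ((w ^ k : Kˣ) : K) = c := h2
  rw [← h3, Units.val_pow_eq_pow_val]

/-- lifts of commuting diagonalisable `p`-elements commute -/
theorem cm_of_frame {p : ℕ} [Fact p.Prime] (hp2 : Odd p) (hgood : Φ.GoodX X) (hXI : X ≤ Φ.Iso)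
    (hX2 : X.relIndex Φ.Iso ∣ 2) {ζ : K} (hζ : ζ ^ p = 1) (hζ1 : ζ ≠ 1) (hζθ : Φ.θ ζ = ζ)
    {T L : Type*} [Group T] [Group L] {π : X →* T} {φ : L →* T} (hφ : Function.Surjective φ)
    (hk : φ.ker ≤ Subgroup.center L) {Q : Subgroup X} (hQ : IsPGroup p Q)
    (hab : ∀ x ∈ Q, ∀ y ∈ Q, x * y = y * x) (hexp : ∀ g ∈ Q, g ^ (Nat.card K - 1) = 1) :
    ∀ x ∈ Q, ∀ y ∈ Q, Cm π φ x y := by
  obtain ⟨ω, hω0, ⟨m, hωm⟩, hω⟩ := exists_gen_root (K := K) p
  have hθ : ∀ c : K, (∃ m, c ^ p ^ m = 1) → Φ.θ c = c := by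
    rintro c ⟨m, hm⟩
    exact Φ.theta_eq Fact.out hp2 hζ hζ1 hζθ hm
  have hodd : Odd (p ^ m) := hp2.pow
  obtain ⟨𝓗, h1, -, h3⟩ := exists_frame (Φ := Φ) hp2 hθ hω0 hω (finrank K E) (Q.map X.subtype)
    (by
      rintro _ ⟨x, -, rfl⟩
      exact hXI x.2) (hQ.map _)
    (by
      rintro _ ⟨x, hx, rfl⟩ _ ⟨y, hy, rfl⟩
      exact congrArg Subtype.val (hab x hx y hy))
    (by
      rintro _ ⟨x, hx, rfl⟩
      exact congrArg Subtype.val (hexp x hx)) (Nat.le_add_left _ _)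
  have htX : ∀ a : HPr Φ, tt a.h hω0 ∈ X := fun a =>
    mem_of_relIndex_dvd_two hX2 (tt_mem_Iso a.h hω0 (hθ ω ⟨m, hωm⟩)) hodd
      (tt_pow_one a.h hω0 hωm)
  let t : HPr Φ → X := fun a => ⟨tt a.h hω0, htX a⟩
  have himg : (fun a : HPr Φ => tt a.h hω0) '' 𝓗 = X.subtype '' (t '' 𝓗) := by
    rw [← Set.image_comp]
    rfl
  rw [himg, ← MonoidHom.map_closure] at h3
  have hQt : Q ≤ Subgroup.closure (t '' 𝓗) := by
    intro x hx
    obtain ⟨y, hy, hyx⟩ := h3 ⟨x, hx, rfl⟩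
    rwa [← Subtype.ext hyx]
  have hcl := Cm.closure (π := π) hφ hk (S := t '' 𝓗) (by
    rintro _ ⟨a, ha, rfl⟩ _ ⟨b, hb, rfl⟩
    by_cases hne : a = b
    · rw [hne]
      exact Cm.self hk _
    obtain ⟨o1, o2, o3, o4⟩ := h1 a ha b hb hne
    obtain ⟨s, hsX, s1, s2, s3, s4⟩ := exists_swap hgood hX2 a.h b.h o1 o2 o3 o4
    have e1 : s * tt a.h hω0 * s⁻¹ = tt b.h hω0 :=
      conj_tt (hXI hsX) a.h b.h (c := 1) (c' := 1) (by rw [map_one, one_mul])
        (by rw [map_one, one_mul]) (by rw [s1, one_smul]) (by rw [s2, one_smul]) hω0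
    have e2 : s * tt b.h hω0 * s⁻¹ = tt a.h hω0 :=
      conj_tt (hXI hsX) b.h a.h (c := -1) (c' := -1) (by rw [map_neg, map_one]; ring)
        (by rw [map_neg, map_one]; ring) (by rw [s3, neg_one_smul]) (by rw [s4, neg_one_smul]) hω0
    refine Cm.swap hφ hk (s := ⟨s, hsX⟩) (Subtype.ext e1) (Subtype.ext e2) ?_ hodd
      (Subtype.ext (tt_pow_one a.h hω0 hωm))
    apply Subtype.ext
    change tt a.h hω0 * tt b.h hω0 = tt b.h hω0 * tt a.h hω0
    -- `tt b` fixes the vectors of the pair `a`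
    have e3 : tt b.h hω0 * tt a.h hω0 * (tt b.h hω0)⁻¹ = tt a.h hω0 :=
      conj_tt (hXI (htX b)) a.h a.h (c := 1) (c' := 1) (by rw [map_one, one_mul])
        (by rw [map_one, one_mul]) (by rw [tt_fix b.h hω0 o1 o2, one_smul])
        (by rw [tt_fix b.h hω0 o3 o4, one_smul]) hω0
    exact (mul_inv_eq_iff_eq_mul.mp e3).symm)
  exact fun x hx y hy => hcl x (hQt hx) y (hQt hy)

/-- **The `p`-part of the multiplier** of a classical group of dimension less than `p`, `p` odd and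
dividing `q - 1`, is trivial. -/
theorem not_dvd_center {p : ℕ} [Fact p.Prime] (hp2 : Odd p) (hgood : Φ.GoodX X) (hXI : X ≤ Φ.Iso)
    (hX2 : X.relIndex Φ.Iso ∣ 2) {ζ : K} (hζ : ζ ^ p = 1) (hζ1 : ζ ≠ 1) (hζθ : Φ.θ ζ = ζ)
    (hd : finrank K E < p) {L T : Type} [Group L] [Finite L] [Group T] (hL : commutator L = ⊤)
    {φ : L →* T} (hφ : Function.Surjective φ) (hk : φ.ker ≤ Subgroup.center L) (π : X →* T)
    (hπ : Function.Surjective π) : ¬ p ∣ Nat.card (Subgroup.center L) := by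
  have hp : p.Prime := Fact.out
  have hfG : Finite (SpecialLinearGroup K E) := HForm.finite_SL
  have hp1 : p ∣ Nat.card K - 1 := by
    have hζ0 : ζ ≠ 0 := by
      rintro rfl
      rw [zero_pow hp.ne_zero] at hζ
      exact zero_ne_one hζ
    have h1 : orderOf (Units.mk0 ζ hζ0) = p := by
      apply orderOf_eq_prime
      · ext
        simpa using hζ
      · intro h
        exact hζ1 (by simpa using congrArg Units.val h)
    rw [← Nat.card_units, ← h1]
    exact orderOf_dvd_natCard _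
  let P : Sylow p L := default
  refine not_dvd_center_of_comm hL P ?_
  have hfT : Finite T := Finite.of_surjective φ hφ
  have hPT : IsPGroup p ((P : Subgroup L).map φ) := P.2.map φ
  obtain ⟨Q, hQ, hQP⟩ :=
    Vale.Agent.P180.R2.H799.BN.exists_lift (p := p) π hπ hPT
  have hQ'p : IsPGroup p (Q.map X.subtype) := hQ.map _
  have hspan : Submodule.span K (EV (Q.map X.subtype)) = ⊤ := span_EV_of_lt hQ'p hp1 hd
  have hab : ∀ x ∈ Q, ∀ y ∈ Q, x * y = y * x := fun x hx y hy =>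
    Subtype.ext (comm_of_span hspan x.1 ⟨x, hx, rfl⟩ y.1 ⟨y, hy, rfl⟩)
  have hexp : ∀ g ∈ Q, g ^ (Nat.card K - 1) = 1 := by
    intro g hg
    apply Subtype.ext
    change g.1 ^ (Nat.card K - 1) = 1
    apply toEnd_injective
    have h1 : Submodule.span K (EV (Q.map X.subtype)) ≤
        LinearMap.ker (toEnd (g.1 ^ (Nat.card K - 1)) - 1) := by
      rw [Submodule.span_le]
      intro v hv
      rw [SetLike.mem_coe, LinearMap.mem_ker, LinearMap.sub_apply, sub_eq_zero]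
      obtain ⟨c, hc⟩ := hv g.1 ⟨g, hg, rfl⟩
      have h2 := pow_apply_eigen hc (Nat.card K - 1)
      change (g.1 ^ (Nat.card K - 1)) v = v
      rw [h2]
      by_cases hv0 : v = 0
      · rw [hv0, smul_zero]
      have hc0 : c ≠ 0 := by
        rintro rfl
        rw [zero_smul] at hc
        exact hv0 ((map_eq_zero_iff (g.1.1 : E ≃ₗ[K] E) (g.1.1 : E ≃ₗ[K] E).injective).mp hc)
      have _ := Fintype.ofFinite K
      rw [Nat.card_eq_fintype_card, FiniteField.pow_card_sub_one_eq_one c hc0, one_smul]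
    rw [hspan, top_le_iff] at h1
    exact sub_eq_zero.mp (LinearMap.ker_eq_top.mp h1)
  have hcm := cm_of_frame (π := π) hp2 hgood hXI hX2 hζ hζ1 hζθ hφ hk hQ hab hexp
  intro a ha b hb
  have ha' : φ a ∈ Q.map π := by rw [hQP]; exact ⟨a, ha, rfl⟩
  have hb' : φ b ∈ Q.map π := by rw [hQP]; exact ⟨b, hb, rfl⟩
  obtain ⟨x, hx, hxa⟩ := ha'
  obtain ⟨y, hy, hyb⟩ := hb'
  exact hcm x hx y hy a b hxa.symm hyb.symm

end Vale.Agent.P180.R2.H259.Cen
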