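import Vale.Agent.P180.R2.H259.Cen.C2
import Vale.Agent.P180.R2.H954.Hf4
import Vale.Agent.P180.R2.H589.Sch.Blk

/-!
P180: the linear factors of the stabiliser of a selfdual decomposition are generated by root
elements; lifts of commuting elements of coprime orders commute.
-/

set_option linter.all false

namespace Vale.Agent.P180.R2.H259.Cen

open Module Vale.Agent.P180 Vale.Agent.P180.R2.H799 Vale.Agent.P180.R2.H799.BN
  Vale.Agent.P180.R2.H854 Vale.Agent.P180.R2.H954.Hc

section Cop

variable {X T L : Type*} [Group X] [Group T] [Group L] {π : X →* T} {φ : L →* T}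

/-- Lifts of commuting elements of coprime orders commute. -/
theorem Cm.coprime (hk : φ.ker ≤ Subgroup.center L) {x y : X} (hxy : x * y = y * x) {m n : ℕ}
    (hx : x ^ m = 1) (hy : y ^ n = 1) (hmn : m.Coprime n) : Cm π φ x y := by
  intro a b ha hb
  set c := a * b * a⁻¹ * b⁻¹ with hc
  have hck : c ∈ φ.ker := by
    rw [MonoidHom.mem_ker, hc, map_mul, map_mul, map_mul, map_inv, map_inv, ha, hb, ← map_inv,
      ← map_inv, ← map_mul, ← map_mul, ← map_mul, hxy]
    have e1 : y * x * x⁻¹ * y⁻¹ = 1 := by group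
    rw [e1, map_one]
  have hcc := hk hck
  have h1 : a * b = c * (b * a) := by rw [hc]; group
  have h1' : b * a = c⁻¹ * (a * b) := by rw [h1]; group
  have h2 := comm_pow hcc h1 m
  have h2' := comm_pow (Subgroup.inv_mem _ hcc) h1' n
  have h3 : a ^ m ∈ φ.ker := by rw [MonoidHom.mem_ker, map_pow, ha, ← map_pow, hx, map_one]
  have h3' : b ^ n ∈ φ.ker := by rw [MonoidHom.mem_ker, map_pow, hb, ← map_pow, hy, map_one]
  rw [Subgroup.mem_center_iff.mp (hk h3) b, right_eq_mul] at h2
  rw [Subgroup.mem_center_iff.mp (hk h3') a, right_eq_mul, inv_pow, inv_eq_one] at h2'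
  have h4 : c = 1 := by
    rw [← orderOf_eq_one_iff, ← Nat.dvd_one, ← hmn]
    exact Nat.dvd_gcd (orderOf_dvd_of_pow_eq_one h2) (orderOf_dvd_of_pow_eq_one h2')
  rw [h1, h4, one_mul]

end Cop

variable {K E : Type} [Field K] [AddCommGroup E] [Module K E] [FiniteDimensional K E] [Finite K]
  {Φ : HForm K E} {Q : Subgroup (SpecialLinearGroup K E)} {D : SDec Φ Q}

variable (D) in
/-- the elements of the stabiliser acting only on a pair of dual summands -/
def MM (i : Fin D.r) : Subgroup (SpecialLinearGroup K E) where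
  carrier := {g | g ∈ D.L ∧ ∀ j, j ≠ i → j ≠ Fin.rev i → toEnd g * D.e j = D.e j}
  one_mem' := ⟨D.L.one_mem, fun j _ _ => by rw [toEnd_one, one_mul]⟩
  mul_mem' := by
    rintro g h ⟨hg, hg1⟩ ⟨hh, hh1⟩
    refine ⟨D.L.mul_mem hg hh, fun j hj hj' => ?_⟩
    rw [toEnd_mul, mul_assoc, hh1 j hj hj', hg1 j hj hj']
  inv_mem' := by
    rintro g ⟨hg, hg1⟩
    refine ⟨D.L.inv_mem hg, fun j hj hj' => ?_⟩
    conv_lhs => rw [← hg1 j hj hj', ← mul_assoc, Dec.toEnd_inv_mul, one_mul]

theorem e_app {i : Fin D.r} {v : E} (hv : v ∈ LinearMap.range (D.e i)) : D.e i v = v := by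
  obtain ⟨y, rfl⟩ := hv
  rw [← End.mul_apply, D.idem]

theorem e_app_ne {i j : Fin D.r} (hij : j ≠ i) {v : E} (hv : v ∈ LinearMap.range (D.e i)) :
    D.e j v = 0 := by
  obtain ⟨y, rfl⟩ := hv
  rw [← End.mul_apply, D.orth j i hij, LinearMap.zero_apply]

/-- the form and the projections -/
theorem B_e (i : Fin D.r) (x y : E) : Φ.B (D.e i x) y = Φ.B x (D.e (Fin.rev i) y) := by
  rw [Φ.adj_right, D.adj_e]

theorem iso_e {i : Fin D.r} (hi : Fin.rev i ≠ i) {v w : E} (hv : v ∈ LinearMap.range (D.e i))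
    (hw : w ∈ LinearMap.range (D.e i)) : Φ.B v w = 0 := by
  rw [← e_app hv, B_e, e_app_ne hi hw, Φ.zero_right]

/-- Root elements belong to the stabiliser. -/
theorem uu_mem_MM {i : Fin D.r} (hi : Fin.rev i ≠ i) {v w : E}
    (hv : v ∈ LinearMap.range (D.e i)) (hw : w ∈ LinearMap.range (D.e (Fin.rev i)))
    (h : Φ.B v w = 0) (c : K) : uu h c ∈ MM D i := by
  have hi' : Fin.rev (Fin.rev i) ≠ Fin.rev i := by rw [Fin.rev_rev]; exact hi.symm
  have hvv := iso_e hi hv hv
  have hww := iso_e hi' hw hw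
  have hu : ∀ x, toEnd (uu h c) x = x + (c * Φ.B x w) • v + (-(Φ.ε⁻¹ * Φ.θ c) * Φ.B x v) • w :=
    fun x => uu_apply h hww c x
  have hI := uu_mem_Iso h hvv hww c
  have key : ∀ j x, toEnd (uu h c) (D.e j x) = D.e j x + (c * Φ.B x (D.e (Fin.rev j) w)) • v +
      (-(Φ.ε⁻¹ * Φ.θ c) * Φ.B x (D.e (Fin.rev j) v)) • w := by
    intro j x
    rw [hu, B_e, B_e]
  have key2 : ∀ j x, D.e j (toEnd (uu h c) x) = D.e j x + (c * Φ.B x w) • D.e j v +
      (-(Φ.ε⁻¹ * Φ.θ c) * Φ.B x v) • D.e j w := by
    intro j x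
    rw [hu, map_add, map_add, map_smul, map_smul]
  refine ⟨⟨fun j => ?_, hI⟩, fun j hj hj' => ?_⟩
  · apply LinearMap.ext
    intro x
    rw [End.mul_apply, End.mul_apply, key, key2]
    by_cases hj : j = i
    · subst hj
      rw [e_app hw, e_app hv, e_app_ne hi hv, e_app_ne hi.symm hw, Φ.zero_right, mul_zero,
        zero_smul, smul_zero]
    by_cases hj' : j = Fin.rev i
    · subst hj'
      rw [Fin.rev_rev, e_app hw, e_app hv, e_app_ne hi hv, e_app_ne hi.symm hw, Φ.zero_right,
        mul_zero, zero_smul, smul_zero]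
    have h1 : Fin.rev j ≠ Fin.rev i := fun e => hj (Fin.rev_injective e)
    have h2 : Fin.rev j ≠ i := fun e => hj' (by rw [← e, Fin.rev_rev])
    rw [e_app_ne h1 hw, e_app_ne h2 hv, e_app_ne hj hv, e_app_ne hj' hw, Φ.zero_right, mul_zero,
      mul_zero, zero_smul, zero_smul, smul_zero, smul_zero]
  · apply LinearMap.ext
    intro x
    rw [End.mul_apply, key]
    have h1 : Fin.rev j ≠ Fin.rev i := fun e => hj (Fin.rev_injective e)
    have h2 : Fin.rev j ≠ i := fun e => hj' (by rw [← e, Fin.rev_rev])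
    rw [e_app_ne h1 hw, e_app_ne h2 hv, Φ.zero_right, mul_zero,
      mul_zero, zero_smul, zero_smul, add_zero, add_zero]

/-- **Generation.** An element of a linear factor belongs to every subgroup containing the root
elements of this factor. -/
theorem mem_of_roots {i : Fin D.r} (hi : Fin.rev i ≠ i) {x : SpecialLinearGroup K E}
    (hx : x ∈ D.A i) (H : Subgroup (SpecialLinearGroup K E))
    (hH : ∀ v ∈ LinearMap.range (D.e i), ∀ w ∈ LinearMap.range (D.e (Fin.rev i)),
      ∀ (h : Φ.B v w = 0) (c : K), uu h c ∈ H) : x ∈ H := by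
  classical
  obtain ⟨hxL, hx1, hxd, -⟩ := hx
  have hi' : Fin.rev (Fin.rev i) ≠ Fin.rev i := by rw [Fin.rev_rev]; exact hi.symm
  set V := LinearMap.range (D.e i) with hV
  let b := Module.finBasis K V
  have hn : 1 ≤ finrank K V := by
    rw [Nat.one_le_iff_ne_zero, Ne, Submodule.finrank_eq_zero, hV, LinearMap.range_eq_bot]
    exact D.ne i
  -- the dual vectors
  have hdual : ∀ l, ∃ w ∈ LinearMap.range (D.e (Fin.rev i)), ∀ y : V,
      Φ.B y w = b.repr y l := by
    intro l
    let f : E →ₗ[K] K := (b.coord l).comp (LinearMap.rangeRestrict (D.e i))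
    obtain ⟨w, hw⟩ := Φ.exists_riesz f
    refine ⟨D.e (Fin.rev i) w, ⟨w, rfl⟩, fun y => ?_⟩
    rw [← B_e, ← hw]
    change b.repr (LinearMap.rangeRestrict (D.e i) (D.e i y)) l = b.repr y l
    congr 2
    apply Subtype.ext
    change D.e i (D.e i y) = y
    rw [e_app y.2, e_app y.2]
  choose w hw hwb using hdual
  -- the elements of `SL(n, K)`
  have key : ∀ A : Vale.Agent.P180.R2.H589.Sch.GS (finrank K V) K, ∃ g ∈ H ⊓ MM D i, ∀ l,
      g (b l : E) = ∑ k, (A : Matrix _ _ K) k l • (b k : E) := by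
    intro A
    refine Vale.Agent.P180.R2.H589.Sch.tv_induction hn (fun A => ∃ g ∈ H ⊓ MM D i, ∀ l,
      g (b l : E) = ∑ k, (A : Matrix _ _ K) k l • (b k : E)) ?_ ?_ ?_ A
    · intro s t hst c
      have h0 : Φ.B (b s : E) (w t) = 0 := by
        rw [hwb, Basis.repr_self, Finsupp.single_apply, if_neg hst]
      refine ⟨uu h0 c, ⟨hH _ (b s).2 _ (hw t) h0 c, uu_mem_MM hi (b s).2 (hw t) h0 c⟩, fun l => ?_⟩
      rw [uu_apply h0 (iso_e hi' (hw t) (hw t)) c, iso_e hi (b l).2 (b s).2, mul_zero, zero_smul,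
        add_zero, hwb, Basis.repr_self, Finsupp.single_apply]
      have h1 : ∀ k, ((Vale.Agent.P180.R2.H589.Sch.tv hst c : Matrix _ _ K)) k l =
          (if k = l then 1 else 0) + (if k = s ∧ t = l then c else 0) := by
        intro k
        change ((1 : Matrix (Fin (finrank K V)) (Fin (finrank K V)) K) +
          Matrix.single s t c) k l = _
        rw [Matrix.add_apply, Matrix.one_apply, Matrix.single_apply]
        congr 1
        by_cases e : s = k ∧ t = l
        · rw [if_pos e, if_pos ⟨e.1.symm, e.2⟩]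
        · rw [if_neg e, if_neg (fun e' => e ⟨e'.1.symm, e'.2⟩)]
      rw [Finset.sum_congr rfl fun k _ => by rw [h1 k, add_smul], Finset.sum_add_distrib]
      congr 1
      · simp
      · by_cases e : t = l
        · subst e
          simp
        · rw [if_neg (fun e' => e e'.symm), mul_zero, zero_smul]
          symm
          refine Finset.sum_eq_zero fun k _ => ?_
          rw [if_neg (fun e' => e e'.2), zero_smul]
    · refine ⟨1, Subgroup.one_mem _, fun l => ?_⟩
      rw [one_apply']
      simp [Matrix.one_apply]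
    · rintro A B ⟨g, hg, hgA⟩ ⟨h, hh, hhB⟩
      refine ⟨g * h, Subgroup.mul_mem _ hg hh, fun l => ?_⟩
      have h1 : (g * h) (b l : E) = g (h (b l : E)) := rfl
      have h2 : ∀ (s : Finset (Fin (finrank K V))) (f : Fin (finrank K V) → E),
          g (∑ k ∈ s, f k) = ∑ k ∈ s, g (f k) := fun s f => map_sum (g : E ≃ₗ[K] E) f s
      have h3 : ∀ (c : K) (y : E), g (c • y) = c • g y := fun c y => map_smul (g : E ≃ₗ[K] E) c y
      rw [h1, hhB, h2]
      simp only [h3, hgA, Finset.smul_sum, smul_smul]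
      rw [Finset.sum_comm]
      refine Finset.sum_congr rfl fun k _ => ?_
      rw [← Finset.sum_smul]
      congr 1
      change _ = ((A : Matrix (Fin (finrank K V)) (Fin (finrank K V)) K) *
        (B : Matrix (Fin (finrank K V)) (Fin (finrank K V)) K)) k l
      rw [Matrix.mul_apply]
      exact Finset.sum_congr rfl fun j _ => mul_comm _ _
  -- the matrix of `x`
  have hmap : ∀ y ∈ V, toEnd x y ∈ V := by
    rintro _ ⟨y, rfl⟩
    rw [← End.mul_apply, hxL.1 i]
    exact ⟨_, rfl⟩
  have hmap' : V ≤ V.comap (D.cp {i} x) := by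
    intro y hy
    rw [Submodule.mem_comap, Dec.cp, Dec.es_singleton, LinearMap.add_apply, End.mul_apply,
      LinearMap.sub_apply, e_app hy, End.one_apply, sub_self, add_zero]
    exact hmap y hy
  have hdet : LinearMap.det ((toEnd x).restrict hmap) = 1 := by
    have h1 := LinearMap.det_eq_det_mul_det V (D.cp {i} x) hmap'
    have h2 : (D.cp {i} x).restrict hmap' = (toEnd x).restrict hmap := by
      apply LinearMap.ext
      intro y
      apply Subtype.ext
      change (D.cp {i} x) y = toEnd x y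
      rw [Dec.cp, Dec.es_singleton, LinearMap.add_apply, End.mul_apply, LinearMap.sub_apply,
        e_app y.2, End.one_apply, sub_self, add_zero]
    have h3 : V.mapQ V (D.cp {i} x) hmap' = 1 := by
      apply LinearMap.ext
      intro y
      obtain ⟨y, rfl⟩ := Submodule.Quotient.mk_surjective _ y
      change Submodule.Quotient.mk (D.cp {i} x y) = Submodule.Quotient.mk y
      rw [Submodule.Quotient.eq, Dec.cp, Dec.es_singleton, LinearMap.add_apply, End.mul_apply,
        LinearMap.sub_apply, End.one_apply]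
      have h4 : toEnd x (D.e i y) + (y - D.e i y) - y = toEnd x (D.e i y) - D.e i y := by abel
      rw [h4]
      exact V.sub_mem (hmap _ ⟨y, rfl⟩) ⟨y, rfl⟩
    rw [h2, h3, map_one, mul_one] at h1
    rw [← h1]
    exact hxd
  obtain ⟨g, hg, hgA⟩ := key ⟨LinearMap.toMatrix b b ((toEnd x).restrict hmap), by
    rw [LinearMap.det_toMatrix, hdet]⟩
  have hgx : ∀ y ∈ V, g y = x y := by
    have h1 : ∀ l, g (b l : E) = x (b l : E) := by
      intro l
      rw [hgA]
      have h2 := congrArg Subtype.val (b.sum_repr ((toEnd x).restrict hmap (b l)))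
      rw [Submodule.coe_sum] at h2
      refine Eq.trans ?_ h2
      refine Finset.sum_congr rfl fun k _ => ?_
      change LinearMap.toMatrix b b ((toEnd x).restrict hmap) k l • (b k : E) = _
      rw [LinearMap.toMatrix_apply]
      rfl
    intro y hy
    have h2 : V ≤ LinearMap.ker (toEnd g - toEnd x) := by
      have h3 : V = Submodule.span K (Set.range fun l => (b l : E)) := by
        have h4 := congrArg (Submodule.map V.subtype) b.span_eq
        rw [Submodule.map_top, Submodule.range_subtype, Submodule.map_span, ← Set.range_comp] at h4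
        exact h4.symm
      rw [h3, Submodule.span_le]
      rintro _ ⟨l, rfl⟩
      rw [SetLike.mem_coe, LinearMap.mem_ker, LinearMap.sub_apply, sub_eq_zero]
      exact h1 l
    have h3 := h2 hy
    rw [LinearMap.mem_ker, LinearMap.sub_apply, sub_eq_zero] at h3
    exact h3
  have hgL := hg.2.1
  have h5 : toEnd (g⁻¹ * x) * D.e i = D.e i := by
    apply LinearMap.ext
    intro y
    have h6 : toEnd (g⁻¹ * x) (D.e i y) = g⁻¹ (x (D.e i y)) := rfl
    rw [End.mul_apply, h6, ← hgx _ ⟨y, rfl⟩]
    exact inv_apply_self' _ _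
  have h6 := SDec.triv_rev (D.L.mul_mem (D.L.inv_mem hgL) hxL) h5
  have h7 : g⁻¹ * x = 1 := by
    apply toEnd_injective
    apply Dec.ext_e (D := D.toDec)
    intro j
    rw [toEnd_one, one_mul]
    by_cases hj : j = i
    · rw [hj]; exact h5
    by_cases hj' : j = Fin.rev i
    · rw [hj']; exact h6
    have h8 : x ∈ MM D i := ⟨hxL, hx1⟩
    exact ((MM D i).mul_mem ((MM D i).inv_mem hg.2) h8).2 j hj hj'
  rw [inv_mul_eq_one] at h7
  rw [← h7]
  exact hg.1

end Vale.Agent.P180.R2.H259.Cen
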