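import Vale.Agent.P180.R2.H259.Cen.C4
import Vale.Agent.P180.R2.H259.Cen.C5
import Vale.Agent.P180.R2.H954.Hf6
import Vale.Agent.P180.R2.H471.Hc11

/-!
P180: the `p`-part of the Schur multipliers of the classical groups of dimension less than `p`, `p`
linear and not dividing `q - 1`.
-/

set_option linter.all false

namespace Vale.Agent.P180.R2.H259.Cen

open Module Vale.Agent.P180 Vale.Agent.P180.R2.H799 Vale.Agent.P180.R2.H799.BN
  Vale.Agent.P180.R2.H854 Vale.Agent.P180.R2.H954.Hc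

variable {K E : Type} [Field K] [AddCommGroup E] [Module K E] [FiniteDimensional K E] [Finite K]
  {Φ : HForm K E}

section

variable {Q : Subgroup (SpecialLinearGroup K E)} {D : SDec Φ Q}

theorem MM_comm {i j : Fin D.r} (hij : i ≠ j) (hi : ¬ Fin.rev i < i) (hj : ¬ Fin.rev j < j)
    {g h : SpecialLinearGroup K E} (hg : g ∈ MM D i) (hh : h ∈ MM D j) : g * h = h * g := by
  obtain ⟨hg0, hg1⟩ := hg
  obtain ⟨hh0, hh1⟩ := hh
  apply toEnd_injective
  rw [toEnd_mul, toEnd_mul]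
  apply Dec.ext_e (D := D.toDec)
  intro l
  by_cases hl : l = i ∨ l = Fin.rev i
  · obtain ⟨h1, h2⟩ := SDec.disj hij hi hj hl
    have h3 : toEnd h * D.e l = D.e l := hh1 l h1 h2
    calc toEnd g * toEnd h * D.e l = toEnd g * D.e l := by rw [mul_assoc, h3]
      _ = D.e l * toEnd g := hg0.1 l
      _ = toEnd h * D.e l * toEnd g := by rw [h3]
      _ = _ := by rw [mul_assoc, ← hg0.1 l, mul_assoc]
  · push Not at hl
    have h1 : toEnd g * D.e l = D.e l := hg1 l hl.1 hl.2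
    calc toEnd g * toEnd h * D.e l = toEnd g * (D.e l * toEnd h) := by rw [mul_assoc, hh0.1 l]
      _ = D.e l * toEnd h := by rw [← mul_assoc, h1]
      _ = toEnd h * (toEnd g * D.e l) := by rw [h1, hh0.1 l]
      _ = _ := by rw [mul_assoc]

/-- components are determined on one summand -/
theorem cp_congr {i : Fin D.r} {g h : SpecialLinearGroup K E} (hg : g ∈ D.L) (hh : h ∈ D.L)
    (h1 : toEnd g * D.e i = toEnd h * D.e i) :
    D.cp {i, Fin.rev i} g = D.cp {i, Fin.rev i} h := by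
  have h2 : toEnd (h⁻¹ * g) * D.e i = D.e i := by
    rw [toEnd_mul, mul_assoc, h1, ← mul_assoc, Dec.toEnd_inv_mul, one_mul]
  have h3 := SDec.triv_rev (D.L.mul_mem (D.L.inv_mem hh) hg) h2
  have h4 : toEnd g * D.e (Fin.rev i) = toEnd h * D.e (Fin.rev i) := by
    conv_rhs => rw [← h3, ← mul_assoc, ← toEnd_mul, mul_inv_cancel_left]
  apply Dec.ext_e (D := D.toDec)
  intro l
  by_cases hl : l ∈ ({i, Fin.rev i} : Finset (Fin D.r))
  · rw [Dec.cp_mul_e_of_mem hl, Dec.cp_mul_e_of_mem hl]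
    rw [Finset.mem_insert, Finset.mem_singleton] at hl
    rcases hl with rfl | rfl
    · exact h1
    · exact h4
  · rw [Dec.cp_mul_e_of_notMem hl, Dec.cp_mul_e_of_notMem hl]

end

variable {X : Subgroup (SpecialLinearGroup K E)}

section

variable {Q : Subgroup (SpecialLinearGroup K E)} {D : SDec Φ Q}
  {T L : Type*} [Group T] [Group L] {π : X →* T} {φ : L →* T}

theorem toEnd_cp_pow {i : Fin D.r} {g : SpecialLinearGroup K E} (hg : g ∈ D.L)
    {u : SpecialLinearGroup K E} (hu : toEnd u = D.cp {i, Fin.rev i} g) (k : ℕ) :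
    toEnd (u ^ k) = D.cp {i, Fin.rev i} (g ^ k) := by
  induction k with
  | zero => rw [pow_zero, pow_zero, Dec.cp_one, toEnd_one]
  | succ k ih => rw [pow_succ, toEnd_mul, ih, hu, pow_succ, Dec.cp_mul (D.toDec.L.pow_mem hg.1 k)
      hg.1]

omit [FiniteDimensional K E] [Finite K] in
theorem Cm.pow_pow (hφ : Function.Surjective φ) (hk : φ.ker ≤ Subgroup.center L) (s : X)
    (k l : ℕ) : Cm π φ (s ^ k) (s ^ l) := by
  have h1 : s ^ k ∈ CmS (π := π) hφ hk s :=
    Subgroup.pow_mem _ (show s ∈ CmS (π := π) hφ hk s from Cm.self hk s) k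
  have h2 : s ^ l ∈ CmS (π := π) hφ hk (s ^ k) :=
    Subgroup.pow_mem _ (show s ∈ CmS (π := π) hφ hk (s ^ k) from Cm.symm h1) l
  exact Cm.symm h2

/-- lifts of components at the same place commute -/
theorem cm_same (hab : ∀ x ∈ Q, ∀ y ∈ Q, x * y = y * x)
    (hφ : Function.Surjective φ) (hk : φ.ker ≤ Subgroup.center L) {i : Fin D.r}
    (hX : ∀ g ∈ Q, ∃ u : X, toEnd u.1 = D.cp {i, Fin.rev i} g) {s t : X}
    {g g' : SpecialLinearGroup K E} (hg : g ∈ Q) (hg' : g' ∈ Q)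
    (hs : toEnd s.1 = D.cp {i, Fin.rev i} g) (ht : toEnd t.1 = D.cp {i, Fin.rev i} g') :
    Cm π φ s t := by
  obtain ⟨F, _, _, χ, hχ⟩ := D.cyc i
  obtain ⟨⟨_, g₀, rfl⟩, hgen⟩ := IsCyclic.exists_generator (α := χ.range)
  have hpow : ∀ q (hq : q ∈ Q), ∃ k : ℕ, toEnd q * D.e i =
      toEnd ((g₀ : SpecialLinearGroup K E) ^ k) * D.e i := by
    intro q hq
    have h1 := hgen ⟨χ ⟨q, hq⟩, ⟨q, hq⟩, rfl⟩
    rw [← mem_powers_iff_mem_zpowers] at h1
    obtain ⟨k, hk⟩ := h1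
    have hk' : χ g₀ ^ k = χ ⟨q, hq⟩ := congrArg Subtype.val hk
    refine ⟨k, ?_⟩
    have h2 : χ ((g₀ ^ k)⁻¹ * ⟨q, hq⟩) = 1 := by
      rw [map_mul, map_inv, map_pow, hk', inv_mul_cancel]
    have h3 := (hχ _).mp h2
    have h4 : toEnd ((((g₀ : SpecialLinearGroup K E) ^ k)⁻¹) * q) * D.e i = D.e i := h3
    conv_rhs => rw [← h4, ← mul_assoc, ← toEnd_mul, mul_inv_cancel_left]
  obtain ⟨s₀, hs₀⟩ := hX g₀.1 g₀.2
  have hL₀ : g₀.1 ∈ D.L := SDec.Q_le hab g₀.2
  have hz : ∀ (u : X) (q) (hq : q ∈ Q), toEnd u.1 = D.cp {i, Fin.rev i} q →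
      ∃ k : ℕ, u = s₀ ^ k := by
    intro u q hq hu
    obtain ⟨k, hk⟩ := hpow q hq
    refine ⟨k, ?_⟩
    apply Subtype.ext
    apply toEnd_injective
    have h2 := toEnd_cp_pow hL₀ hs₀ k
    rw [hu, cp_congr (SDec.Q_le hab hq) (D.L.pow_mem hL₀ k) hk, ← h2]
    rfl
  obtain ⟨k, hk'⟩ := hz s g hg hs
  obtain ⟨l, hl⟩ := hz t g' hg' ht
  rw [hk', hl]
  exact Cm.pow_pow hφ hk s₀ k l

/-- lifts of components at different places commute -/
theorem cm_diff (hgood : Φ.GoodX X) (hX2 : X.relIndex Φ.Iso ∣ 2) (hφ : Function.Surjective φ)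
    (hk : φ.ker ≤ Subgroup.center L) {i j : Fin D.r} (hij : i ≠ j) (hi : ¬ Fin.rev i < i)
    (hj : ¬ Fin.rev j < j) (hri : Fin.rev i ≠ i) {s t : X} (hs : s.1 ∈ D.A i)
    (ht : t.1 ∈ MM D j) {n : ℕ} (htn : t ^ n = 1) (hn : (Nat.card K).Coprime n) :
    Cm π φ s t := by
  have hri' : Fin.rev (Fin.rev i) ≠ Fin.rev i := by rw [Fin.rev_rev]; exact hri.symm
  obtain ⟨y, hy, hys⟩ := mem_of_roots hri hs ((CmS (π := π) hφ hk t).map X.subtype) (by
    intro v hv w hw h c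
    have hvv := iso_e hri hv hv
    have hww := iso_e hri' hw hw
    refine ⟨⟨uu h c, uu_mem_X hgood hX2 h hvv hww c⟩, ?_, rfl⟩
    refine Cm.coprime (m := Nat.card K) (n := n) hk ?_ ?_ htn hn
    · exact Subtype.ext (MM_comm hij hi hj (uu_mem_MM hri hv hw h c) ht)
    · apply Subtype.ext
      change uu h c ^ Nat.card K = 1
      have _ := Fintype.ofFinite K
      rw [uu_pow h hvv hww, Nat.card_eq_fintype_card, FiniteField.cast_card_eq_zero, zero_mul,
        uu_zero h hww])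
  have hys' : y = s := Subtype.ext hys
  rw [← hys']
  exact hy

/-- lifts of the elements of `Q` commute -/
theorem cm_of_D {p : ℕ} [Fact p.Prime] (hpo : Odd p) (hgood : Φ.GoodX X)
    (hX2 : X.relIndex Φ.Iso ∣ 2) (hpK : ¬ p ∣ Nat.card K) (hφ : Function.Surjective φ)
    (hk : φ.ker ≤ Subgroup.center L) (hQ : IsPGroup p Q)
    (hab : ∀ x ∈ Q, ∀ y ∈ Q, x * y = y * x) (hd1 : ∀ g ∈ Q, ∀ i : Fin D.r, D.dt {i} g = 1) :
    ∀ x y : X, x.1 ∈ Q → y.1 ∈ Q → Cm π φ x y := by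
  classical
  have hp : p.Prime := Fact.out
  have hQL : ∀ g ∈ Q, g ∈ D.L := fun g hg => SDec.Q_le (D := D) hab hg
  have hdt : ∀ g ∈ Q, ∀ s, LinearMap.det (D.cp s g) = 1 := by
    intro g hg s
    have h1 := Dec.dt_prod (D := D.toDec) (hQL g hg).1 s
    rw [Finset.prod_congr rfl fun i _ => hd1 g hg i, Finset.prod_const_one] at h1
    exact h1
  -- powers of the components
  have hpw : ∀ g ∈ Q, ∀ (i : Fin D.r) (u : SpecialLinearGroup K E),
      toEnd u = D.cp {i, Fin.rev i} g → ∃ m, u ^ p ^ m = 1 := by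
    intro g hg i u hu
    obtain ⟨m, hm⟩ := hQ ⟨g, hg⟩
    have hm' : g ^ p ^ m = 1 := congrArg Subtype.val hm
    refine ⟨m, ?_⟩
    apply toEnd_injective
    rw [toEnd_cp_pow (hQL g hg) hu, hm', Dec.cp_one, toEnd_one]
  -- the components lie in `X`
  have hcpX : ∀ g ∈ Q, ∀ i : Fin D.r, ∃ u : X, toEnd u.1 = D.cp {i, Fin.rev i} g := by
    intro g hg i
    have h1 := toEnd_mkSL (D.cp {i, Fin.rev i} g) (hdt g hg _)
    obtain ⟨m, hm⟩ := hpw g hg i _ h1
    exact ⟨⟨_, Vale.Agent.P180.R2.H954.Hc.mem_of_relIndex_two hX2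
      (SDec.mk_mem_L (hQL g hg) (SDec.pair_image i) _).2 (hpo.pow (n := m)) hm⟩, h1⟩
  let S : Set X := {s | ∃ g ∈ Q, ∃ i : Fin D.r, ¬ Fin.rev i < i ∧
    toEnd s.1 = D.cp {i, Fin.rev i} g}
  have hQS : ∀ x : X, x.1 ∈ Q → x ∈ Subgroup.closure S := by
    intro x hg
    have h1 := SDec.mem_iSup_inf (hQL _ hg)
      (fun i => hd1 _ hg i) ((Subgroup.closure S).map X.subtype) (by
        intro i h'
        obtain ⟨u, hu⟩ := hcpX _ hg i
        have h2 : u.1 = mkSL (D.cp {i, Fin.rev i} x.1) h' := by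
          apply toEnd_injective
          rw [hu, toEnd_mkSL]
        rw [← h2]
        refine ⟨u, Subgroup.subset_closure ?_, rfl⟩
        by_cases hi : Fin.rev i < i
        · refine ⟨x.1, hg, Fin.rev i, ?_, ?_⟩
          · rw [Fin.rev_rev, not_lt]
            exact hi.le
          · rw [Fin.rev_rev, Finset.pair_comm]
            exact hu
        · exact ⟨x.1, hg, i, hi, hu⟩)
    have h2 : (⨆ i, (D.A i ⊓ (Subgroup.closure S).map X.subtype)) ≤
        (Subgroup.closure S).map X.subtype := iSup_le fun i => inf_le_right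
    obtain ⟨y, hy, hyx⟩ := h2 h1
    rwa [← Subtype.ext hyx]
  have hcl := Cm.closure (π := π) hφ hk (S := S) (by
    rintro s ⟨g, hg, i, hi, hs⟩ t ⟨g', hg', j, hj, ht⟩
    by_cases hri : Fin.rev i = i
    · have h1 : s = 1 := by
        apply Subtype.ext
        apply toEnd_injective
        rw [hs]
        change _ = toEnd (1 : SpecialLinearGroup K E)
        rw [toEnd_one, ← Dec.cp_one (D := D.toDec) {i, Fin.rev i}]
        refine cp_congr (hQL g hg) D.L.one_mem ?_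
        rw [D.triv i hri g hg, toEnd_one, one_mul]
      rw [h1]
      exact Cm.one hk _
    by_cases hij : i = j
    · subst hij
      exact cm_same hab hφ hk (fun g hg => hcpX g hg i) hg hg' hs ht
    -- different components
    have hsA : s.1 ∈ D.A i := by
      have hs' : s.1 = mkSL (D.cp {i, Fin.rev i} g) (hdt g hg _) := by
        apply toEnd_injective
        rw [hs, toEnd_mkSL]
      rw [hs']
      exact SDec.mk_mem_A (hQL g hg) hi (hd1 g hg i) _
    have htA : t.1 ∈ D.A j := by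
      have ht' : t.1 = mkSL (D.cp {j, Fin.rev j} g') (hdt g' hg' _) := by
        apply toEnd_injective
        rw [ht, toEnd_mkSL]
      rw [ht']
      exact SDec.mk_mem_A (hQL g' hg') hj (hd1 g' hg' j) _
    obtain ⟨m, hm⟩ := hpw g' hg' j t.1 ht
    exact cm_diff hgood hX2 hφ hk hij hi hj hri hsA ⟨htA.1, htA.2.1⟩ (n := p ^ m)
      (Subtype.ext hm) (Nat.Coprime.pow_left m ((Nat.Prime.coprime_iff_not_dvd hp).mpr hpK)).symm)
  exact fun x y hx hy => hcl x (hQS x hx) y (hQS y hy)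

end

/-- lifts of elements of an abelian `p`-subgroup commute -/
theorem cm_of_sdec {p : ℕ} [Fact p.Prime] (hgood : Φ.GoodX X) (hXI : X ≤ Φ.Iso)
    (hX2 : X.relIndex Φ.Iso ∣ 2) (hpK : ¬ p ∣ Nat.card K) (hpK1 : ¬ p ∣ Nat.card K - 1)
    (hlin : ∀ j : ℕ, (∀ c, Φ.θ c = c ^ (ringChar K ^ j)) → ¬ p ∣ ringChar K ^ j + 1)
    {T L : Type*} [Group T] [Group L] {π : X →* T} {φ : L →* T} (hφ : Function.Surjective φ)
    (hk : φ.ker ≤ Subgroup.center L) {Q : Subgroup X} (hQ : IsPGroup p Q)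
    (hab : ∀ x ∈ Q, ∀ y ∈ Q, x * y = y * x) : ∀ x ∈ Q, ∀ y ∈ Q, Cm π φ x y := by
  have hp : p.Prime := Fact.out
  have hfinG : Finite (SpecialLinearGroup K E) := SDec.finite_sl
  have hpo : Odd p := by
    rcases hp.eq_two_or_odd' with h | h
    · exfalso
      subst h
      have h0 : 0 < Nat.card K := Nat.card_pos
      omega
    · exact h
  have hQ'p : IsPGroup p (Q.map X.subtype) := hQ.map _
  have hQ'X : Q.map X.subtype ≤ X := by
    rintro _ ⟨x, -, rfl⟩
    exact x.2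
  have hab' : ∀ x ∈ Q.map X.subtype, ∀ y ∈ Q.map X.subtype, x * y = y * x := by
    rintro _ ⟨x, hx, rfl⟩ _ ⟨y, hy, rfl⟩
    exact congrArg Subtype.val (hab x hx y hy)
  obtain ⟨l, hl⟩ := IsPGroup.iff_card.mp hQ'p
  have hcop : (Nat.card K).Coprime (Nat.card (Q.map X.subtype)) := by
    rw [hl]
    exact (Nat.Coprime.pow_left l ((Nat.Prime.coprime_iff_not_dvd hp).mpr hpK)).symm
  have hcop1 : (Nat.card (Q.map X.subtype)).Coprime (Nat.card K - 1) := by
    rw [hl]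
    exact Nat.Coprime.pow_left l ((Nat.Prime.coprime_iff_not_dvd hp).mpr hpK1)
  obtain ⟨D₀, hD1, hD2⟩ := exists_sdec Φ hp hQ'p hcop (hQ'X.trans hXI) hab' hlin
  let D : SDec Φ (Q.map X.subtype) :=
    { D₀ with adj_e := hD1, triv := hD2, le := hQ'X.trans hXI }
  intro x hx y hy
  exact cm_of_D (D := D) hpo hgood hX2 hpK hφ hk hQ'p hab'
    (fun g hg i => SDec.dt_eq_one hab' hcop1 hg i) x y ⟨x, hx, rfl⟩ ⟨y, hy, rfl⟩

/-- The `p`-subgroups of the special linear groups of dimension less than `p` are abelian. -/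
theorem comm_of_lt' {p : ℕ} [Fact p.Prime] (hpK : ¬ p ∣ Nat.card K) (hd : finrank K E < p)
    {Q : Subgroup (SpecialLinearGroup K E)} (hQ : IsPGroup p Q) :
    ∀ x ∈ Q, ∀ y ∈ Q, x * y = y * x := by
  let e := (Module.finBasis K E).equivFun
  let f := SpecialLinearGroup.congr_linearEquiv e
  intro x hx y hy
  have h1 := Vale.Agent.P180.R2.H471.Hc.comm_of_lt hpK hd (hQ.map f.toMonoidHom) (f x)
    ⟨x, hx, rfl⟩ (f y) ⟨y, hy, rfl⟩
  rw [← map_mul, ← map_mul] at h1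
  exact f.injective h1

/-- **The `p`-part of the multiplier** of a classical group of dimension less than `p`, `p` linear
and not dividing `q (q - 1)`, is trivial. -/
theorem not_dvd_center' {p : ℕ} [Fact p.Prime] (hgood : Φ.GoodX X) (hXI : X ≤ Φ.Iso)
    (hX2 : X.relIndex Φ.Iso ∣ 2) (hpK : ¬ p ∣ Nat.card K) (hpK1 : ¬ p ∣ Nat.card K - 1)
    (hlin : ∀ j : ℕ, (∀ c, Φ.θ c = c ^ (ringChar K ^ j)) → ¬ p ∣ ringChar K ^ j + 1)
    (hd : finrank K E < p) {L T : Type} [Group L] [Finite L] [Group T] (hL : commutator L = ⊤)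
    {φ : L →* T} (hφ : Function.Surjective φ) (hk : φ.ker ≤ Subgroup.center L) (π : X →* T)
    (hπ : Function.Surjective π) : ¬ p ∣ Nat.card (Subgroup.center L) := by
  have hp : p.Prime := Fact.out
  have hfG : Finite (SpecialLinearGroup K E) := HForm.finite_SL
  let P : Sylow p L := default
  refine not_dvd_center_of_comm hL P ?_
  have hfT : Finite T := Finite.of_surjective φ hφ
  have hPT : IsPGroup p ((P : Subgroup L).map φ) := P.2.map φ
  obtain ⟨Q, hQ, hQP⟩ :=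
    Vale.Agent.P180.R2.H799.BN.exists_lift (p := p) π hπ hPT
  have hab : ∀ x ∈ Q, ∀ y ∈ Q, x * y = y * x := fun x hx y hy =>
    Subtype.ext (comm_of_lt' hpK hd (hQ.map X.subtype) x.1 ⟨x, hx, rfl⟩ y.1 ⟨y, hy, rfl⟩)
  have hcm := cm_of_sdec (π := π) hgood hXI hX2 hpK hpK1 hlin hφ hk hQ hab
  intro a ha b hb
  have ha' : φ a ∈ Q.map π := by rw [hQP]; exact ⟨a, ha, rfl⟩
  have hb' : φ b ∈ Q.map π := by rw [hQP]; exact ⟨b, hb, rfl⟩
  obtain ⟨x, hx, hxa⟩ := ha'
  obtain ⟨y, hy, hyb⟩ := hb'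
  exact hcm x hx y hy a b hxa.symm hyb.symm

end Vale.Agent.P180.R2.H259.Cen
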