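import Vale.Agent.P180.R2.H259.Cen.A3
import Vale.Agent.P180.R2.H799.BY1

/-!
P180: groups with a split parabolic system and an action of a `p`-group, central extensions of
coprime order.
-/

set_option linter.all false

namespace Vale.Agent.P180.R2.H259.Cen

open Vale.Agent.P180 Vale.Agent.P180.R2.H799

/-- `(L, Γ)` is as in `ParOut`, with `p'`-subgroups of order prime to `z`. -/
def ParOutZ (p z : ℕ) (L : Type) [Group L] (Γ : Subgroup (MulAut L)) : Prop :=
  (∃ c : MulAut L, ∀ α ∈ Γ, ∃ (i : ℤ) (y : L), α = c ^ i * MulAut.conj y) ∧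
  ∃ (S : Type) (_ : Group S) (_ : Finite S) (𝒮 : ParSys p S) (π : S →* L),
    Function.Surjective π ∧ 𝒮.HasLevi ∧ ¬ p ∣ Nat.card (Subgroup.center S) ∧
    (∀ V ∈ 𝒮.car, (Nat.card V).Coprime (Nat.card (Subgroup.center S)) ∧
      (Nat.card V).Coprime z) ∧
    (∀ x, π x ∈ Subgroup.center L → x ∈ Subgroup.center S) ∧
    ∀ Γ' ≤ Γ, ∀ Q : Subgroup S,
      (∀ x, x ∈ Q ↔ (∃ i, x ^ p ^ i = 1) ∧ MulAut.conj (π x) ∈ Γ') → ParStab 𝒮 π Γ' Q

section Aut

variable {S S' : Type} [Group S] [Group S'] {f : S →* S'}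

/-- automorphisms of a perfect group which agree modulo central elements are equal -/
theorem aut_eq (hk : f.ker ≤ Subgroup.center S) (hS : commutator S = ⊤)
    {α β : MulAut S} (h : ∀ s, f (α s) = f (β s)) : α = β := by
  have hker : ∀ x, f x = 1 → ∀ y, x * y = y * x := fun x hx y =>
    (Subgroup.mem_center_iff.mp (hk hx) y).symm
  have hk : ∀ l : S, f ((β l)⁻¹ * α l) = 1 := by
    intro l
    rw [map_mul, map_inv, h, inv_mul_cancel]
  let c : S →* S := MonoidHom.mk' (fun l => (β l)⁻¹ * α l) (by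
    intro l l'
    have h1 := hker _ (hk l) (β l')⁻¹
    calc (β (l * l'))⁻¹ * α (l * l') = (β l')⁻¹ * ((β l)⁻¹ * α l) * α l' := by
          rw [map_mul, map_mul]; group
      _ = (β l)⁻¹ * α l * (β l')⁻¹ * α l' := by rw [h1]
      _ = _ := by group)
  have hc : ∀ l, c l = (β l)⁻¹ * α l := fun l => rfl
  have h2 : commutator S ≤ c.ker := by
    rw [commutator_def, Subgroup.commutator_le]
    intro a _ b _
    rw [MonoidHom.mem_ker, commutatorElement_def, map_mul, map_mul, map_mul, map_inv, map_inv]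
    have h3 : c a * c b = c b * c a := hker _ (hk a) _
    rw [h3, mul_inv_cancel_right, mul_inv_cancel]
  ext l
  have h3 : c l = 1 := MonoidHom.mem_ker.mp (h2 (by rw [hS]; exact Subgroup.mem_top l))
  rw [hc] at h3
  exact (inv_mul_eq_one.mp h3).symm

/-- a subgroup with cyclic image in the outer automorphism group -/
theorem exists_gen {L : Type} [Group L] {Γ : Subgroup (MulAut L)} {c : MulAut L}
    (h : ∀ α ∈ Γ, ∃ (i : ℤ) (y : L), α = c ^ i * MulAut.conj y) :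
    ∃ c₁ ∈ Γ, ∀ α ∈ Γ, ∃ (i : ℤ) (y : L), α = c₁ ^ i * MulAut.conj y := by
  let N : Subgroup (MulAut L) := (MulAut.conj : L →* MulAut L).range
  have hN : N.Normal := by
    refine ⟨?_⟩
    rintro _ ⟨y, rfl⟩ α
    refine ⟨α y, ?_⟩
    ext x
    rw [MulAut.mul_apply, MulAut.mul_apply, MulAut.conj_apply, MulAut.conj_apply, map_mul,
      map_mul, map_inv, MulAut.apply_inv_self]
  let q : MulAut L →* MulAut L ⧸ N := QuotientGroup.mk' N
  have hle : Γ.map q ≤ Subgroup.zpowers (q c) := by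
    rintro _ ⟨α, hα, rfl⟩
    obtain ⟨i, y, rfl⟩ := h α hα
    refine Subgroup.mem_zpowers_iff.mpr ⟨i, ?_⟩
    rw [map_mul, map_zpow]
    have h1 : q (MulAut.conj y) = 1 := (QuotientGroup.eq_one_iff _).mpr ⟨y, rfl⟩
    rw [h1, mul_one]
  have hcyc : IsCyclic (Γ.map q) := Subgroup.isCyclic_of_le hle
  obtain ⟨⟨_, c₁, hc₁, rfl⟩, hg⟩ := hcyc.exists_generator
  refine ⟨c₁, hc₁, fun α hα => ?_⟩
  obtain ⟨i, hi⟩ := Subgroup.mem_zpowers_iff.mp (hg ⟨q α, α, hα, rfl⟩)
  have h1 : q c₁ ^ i = q α := congrArg Subtype.val hi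
  rw [← map_zpow] at h1
  obtain ⟨y, hy⟩ := QuotientGroup.eq.mp h1
  refine ⟨i, y, ?_⟩
  rw [hy, mul_inv_cancel_left]

/-- the automorphisms of the quotient induced by a group of automorphisms -/
def ind (f : S →* S') (hf : Function.Surjective f) (Γ : Subgroup (MulAut S)) :
    Subgroup (MulAut S') where
  carrier := {α' | ∃ α ∈ Γ, ∀ s, f (α s) = α' (f s)}
  one_mem' := ⟨1, Γ.one_mem, fun s => rfl⟩
  mul_mem' := by
    rintro α' β' ⟨α, hα, h1⟩ ⟨β, hβ, h2⟩
    refine ⟨α * β, Γ.mul_mem hα hβ, fun s => ?_⟩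
    rw [MulAut.mul_apply, MulAut.mul_apply, h1, h2]
  inv_mem' := by
    rintro α' ⟨α, hα, h1⟩
    refine ⟨α⁻¹, Γ.inv_mem hα, fun s => ?_⟩
    have h2 := h1 (α⁻¹ s)
    rw [MulAut.apply_inv_self] at h2
    rw [h2, MulAut.inv_apply_self]

theorem mem_ind {hf : Function.Surjective f} {Γ : Subgroup (MulAut S)} {α' : MulAut S'} :
    α' ∈ ind f hf Γ ↔ ∃ α ∈ Γ, ∀ s, f (α s) = α' (f s) := Iff.rfl

theorem ind_unique (hf : Function.Surjective f) {α : MulAut S} {α' β' : MulAut S'}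
    (h1 : ∀ s, f (α s) = α' (f s)) (h2 : ∀ s, f (α s) = β' (f s)) : α' = β' := by
  ext s'
  obtain ⟨s, rfl⟩ := hf s'
  rw [← h1, h2]

/-- the cyclic clause lifts -/
theorem cyc_lift (hf : Function.Surjective f) (hk : f.ker ≤ Subgroup.center S)
    (hS : commutator S = ⊤) {Γ : Subgroup (MulAut S)} {Γ₁ : Subgroup (MulAut S')}
    (hΓ : ∀ α ∈ Γ, ∃ α' ∈ Γ₁, ∀ s, f (α s) = α' (f s))
    (h : ∃ c : MulAut S', ∀ α ∈ Γ₁, ∃ (i : ℤ) (y : S'), α = c ^ i * MulAut.conj y) :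
    ∃ c : MulAut S, ∀ α ∈ Γ, ∃ (i : ℤ) (y : S), α = c ^ i * MulAut.conj y := by
  obtain ⟨c, hc⟩ := h
  have hle : ind f hf Γ ≤ Γ₁ := by
    rintro α' ⟨α, hα, h1⟩
    obtain ⟨β', hβ', h2⟩ := hΓ α hα
    rw [ind_unique hf h1 h2]
    exact hβ'
  obtain ⟨c₁, ⟨c₀, hc₀, h1⟩, hgen⟩ := exists_gen (Γ := ind f hf Γ) (c := c)
    fun α hα => hc α (hle hα)
  have hpow : ∀ (n : ℕ) (s : S), f ((c₀ ^ n) s) = (c₁ ^ n) (f s) := by
    intro n
    induction n with
    | zero => intro s; rfl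
    | succ n ih =>
      intro s
      rw [pow_succ, pow_succ, MulAut.mul_apply, MulAut.mul_apply, ih, h1]
  have hzpow : ∀ (n : ℤ) (s : S), f ((c₀ ^ n) s) = (c₁ ^ n) (f s) := by
    intro n s
    obtain ⟨j, rfl | rfl⟩ := n.eq_nat_or_neg
    · rw [zpow_natCast, zpow_natCast, hpow]
    · rw [zpow_neg, zpow_neg, zpow_natCast, zpow_natCast]
      have h2 := hpow j ((c₀ ^ j)⁻¹ s)
      rw [MulAut.apply_inv_self] at h2
      rw [h2, MulAut.inv_apply_self]
  refine ⟨c₀, fun α hα => ?_⟩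
  obtain ⟨α', hα', h2⟩ := hΓ α hα
  obtain ⟨i, y', hy⟩ := hgen α' ⟨α, hα, h2⟩
  obtain ⟨y, rfl⟩ := hf y'
  refine ⟨i, y, ?_⟩
  apply aut_eq hk hS
  intro s
  have h4 : f (y * s * y⁻¹) = f y * f s * (f y)⁻¹ := by rw [map_mul, map_mul, map_inv]
  rw [h2, hy, MulAut.mul_apply, MulAut.mul_apply, hzpow, MulAut.conj_apply, MulAut.conj_apply, h4]

end Aut

section Lft

variable {S' S : Type*} [Group S'] [Group S] [Finite S'] {f : S' →* S}

/-- lifting of `p`-elements -/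
theorem exists_lift_pel {p : ℕ} [hp : Fact p.Prime] (hf : Function.Surjective f)
    (hk : f.ker ≤ Subgroup.center S') (hpk : ¬ p ∣ Nat.card f.ker) {y : S}
    (hy : ∃ i, y ^ p ^ i = 1) : ∃ x, f x = y ∧ ∃ i, x ^ p ^ i = 1 := by
  have hfin : Finite S := Finite.of_surjective f hf
  obtain ⟨i, hi⟩ := hy
  obtain ⟨j, -, hj⟩ := (Nat.dvd_prime_pow hp.out).mp (orderOf_dvd_of_pow_eq_one hi)
  have hc : (Nat.card (Subgroup.zpowers y)).Coprime (Nat.card f.ker) := by
    rw [Nat.card_zpowers, hj]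
    exact Nat.Coprime.pow_left j ((Nat.Prime.coprime_iff_not_dvd hp.out).mpr hpk)
  have h1 : y ∈ (liftV f (Subgroup.zpowers y)).map f := by
    rw [map_liftV hf hk hc]
    exact Subgroup.mem_zpowers y
  obtain ⟨x, hx, hxy⟩ := h1
  have h2 := ((mem_liftV hf hk hc).mp hx).2
  rw [Nat.card_zpowers, hj] at h2
  exact ⟨x, hxy, j, h2⟩

/-- `p`-elements in a kernel of order prime to `p` -/
theorem pel_ker {p : ℕ} [hp : Fact p.Prime] (hpk : ¬ p ∣ Nat.card f.ker) {x : S'}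
    (hx : ∃ i, x ^ p ^ i = 1) (h : f x = 1) : x = 1 := by
  obtain ⟨i, hi⟩ := hx
  have h2 : orderOf x ∣ Nat.card f.ker := by
    have h5 := orderOf_dvd_natCard (⟨x, h⟩ : f.ker)
    rwa [show orderOf (⟨x, h⟩ : f.ker) = orderOf x from
      (orderOf_injective f.ker.subtype f.ker.subtype_injective _).symm] at h5
  have h3 : Nat.Coprime (p ^ i) (Nat.card f.ker) :=
    Nat.Coprime.pow_left i ((Nat.Prime.coprime_iff_not_dvd hp.out).mpr hpk)
  have h4 := Nat.dvd_gcd (orderOf_dvd_of_pow_eq_one hi) h2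
  rw [Nat.Coprime.gcd_eq_one h3] at h4
  exact orderOf_eq_one_iff.mp (Nat.dvd_one.mp h4)

/-- commutation of a `p`-element modulo a central kernel of order prime to `p` -/
theorem pel_comm {p : ℕ} [hp : Fact p.Prime] (hk : f.ker ≤ Subgroup.center S')
    (hpk : ¬ p ∣ Nat.card f.ker) {x y : S'} (hx : ∃ i, x ^ p ^ i = 1)
    (h : f x * f y = f y * f x) : x * y = y * x := by
  -- `y⁻¹ x y` and `x` are `p`-elements with the same image
  have h1 : x * y * x⁻¹ * y⁻¹ ∈ f.ker := by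
    rw [MonoidHom.mem_ker, map_mul, map_mul, map_mul, map_inv, map_inv, h]
    group
  have hc := Subgroup.mem_center_iff.mp (hk h1)
  obtain ⟨i, hi⟩ := hx
  set c := x * y * x⁻¹ * y⁻¹ with hcdef
  have h2 : x * y = c * (y * x) := by rw [hcdef]; group
  have h3 : ∀ n : ℕ, x ^ n * y = c ^ n * (y * x ^ n) := by
    intro n
    induction n with
    | zero => rw [pow_zero, pow_zero, one_mul, one_mul, mul_one]
    | succ n ih =>
      calc x ^ (n + 1) * y = x ^ n * (x * y) := by rw [pow_succ, mul_assoc]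
        _ = x ^ n * (c * (y * x)) := by rw [h2]
        _ = (x ^ n * c) * (y * x) := by group
        _ = (c * x ^ n) * (y * x) := by rw [hc]
        _ = c * (x ^ n * y) * x := by group
        _ = c * (c ^ n * (y * x ^ n)) * x := by rw [ih]
        _ = c ^ (n + 1) * (y * x ^ (n + 1)) := by rw [pow_succ' c, pow_succ x]; group
  have h4 := h3 (p ^ i)
  rw [hi, one_mul, mul_one] at h4
  have h5 : c ^ p ^ i = 1 := (mul_eq_right.mp h4.symm)
  have h6 : c = 1 := pel_ker hpk ⟨i, h5⟩ h1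
  rw [h2, h6, one_mul]

end Lft

/-- **Split parabolic systems with an action of a `p`-group, central extensions of coprime
order.** -/
theorem parOut_lift {p : ℕ} [hp : Fact p.Prime] {L L₁ : Type} [Group L] [Group L₁] [Finite L]
    {f : L →* L₁} (hf : Function.Surjective f) (hk : f.ker ≤ Subgroup.center L)
    (hL : commutator L = ⊤) (hpk : ¬ p ∣ Nat.card f.ker) {Γ : Subgroup (MulAut L)}
    {Γ₁ : Subgroup (MulAut L₁)} (hΓ : ∀ α ∈ Γ, ∃ α₁ ∈ Γ₁, ∀ s, f (α s) = α₁ (f s))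
    (h : ParOutZ p (Nat.card f.ker) L₁ Γ₁) : ParOut p L Γ := by
  obtain ⟨hcyc, S, _, _, 𝒮, π, hπ, hLv, hpZ, hV, hc, hst⟩ := h
  have hfs := pS_surj (π := π) hf
  have hks := pS_ker (π := π) hk
  have hck := card_pS_ker (π := π) (f := f)
  have hcV : ∀ V ∈ 𝒮.car, (Nat.card V).Coprime (Nat.card (pS π f).ker) := by
    intro V hV'
    rw [hck]
    exact (hV V hV').2
  have hpk' : ¬ p ∣ Nat.card (pS π f).ker := by rw [hck]; exact hpk
  refine ⟨cyc_lift hf hk hL hΓ hcyc, Fib π f, inferInstance, inferInstance,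
    liftSys 𝒮 hfs hks hcV, pL π f, pL_surj hπ, hasLevi_lift 𝒮 hfs hks hcV hpk' hLv, ?_, ?_, ?_, ?_⟩
  · intro h
    rcases hp.out.dvd_mul.mp (h.trans (card_center_dvd hf)) with h1 | h1
    · exact hpZ h1
    · exact hpk h1
  · rintro _ ⟨V, hV', rfl⟩
    rw [card_liftV hfs hks (hcV V hV')]
    exact Nat.Coprime.coprime_dvd_right (card_center_dvd hf)
      (Nat.Coprime.mul_right (hV V hV').1 (hV V hV').2)
  · intro x hx
    refine mem_center_Fib (hc _ ?_) hx
    have h1 : π x.1.1 = f x.1.2 := x.2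
    rw [h1, Subgroup.mem_center_iff]
    intro l
    obtain ⟨l, rfl⟩ := hf l
    have h2 := Subgroup.mem_center_iff.mp hx l
    have h3 : l * x.1.2 = x.1.2 * l := h2
    rw [← map_mul, ← map_mul, h3]
  · intro Γ' hΓ' Q' hQ'
    -- the induced group
    have hΔ : ind f hf Γ' ≤ Γ₁ := by
      rintro α' ⟨α, hα, h1⟩
      obtain ⟨β', hβ', h2⟩ := hΓ α (hΓ' hα)
      rw [ind_unique hf h1 h2]
      exact hβ'
    have hco : ∀ x : Fib π f, π (pS π f x) = f (pL π f x) := fun x => x.2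
    have hQ : ∀ y, y ∈ Q'.map (pS π f) ↔
        (∃ i, y ^ p ^ i = 1) ∧ MulAut.conj (π y) ∈ ind f hf Γ' := by
      intro y
      constructor
      · rintro ⟨x, hx, rfl⟩
        obtain ⟨⟨i, hi⟩, hx2⟩ := (hQ' x).mp hx
        refine ⟨⟨i, by rw [← map_pow, hi, map_one]⟩, _, hx2, fun s => ?_⟩
        rw [hco, MulAut.conj_apply, MulAut.conj_apply, map_mul, map_mul, map_inv]
      · rintro ⟨hy, α, hα, h1⟩
        obtain ⟨x, rfl, hx⟩ := exists_lift_pel hfs hks hpk' hy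
        refine ⟨x, (hQ' x).mpr ⟨hx, ?_⟩, rfl⟩
        have h2 : MulAut.conj (pL π f x) = α := by
          apply aut_eq hk hL
          intro s
          rw [h1, hco, MulAut.conj_apply, MulAut.conj_apply, map_mul, map_mul, map_inv]
        rw [h2]
        exact hα
    obtain ⟨hab, hst'⟩ := hst (ind f hf Γ') hΔ (Q'.map (pS π f)) hQ
    have hQp : IsPGroup p (Q'.map (pS π f)) := by
      rintro ⟨y, hy⟩
      obtain ⟨⟨i, hi⟩, -⟩ := (hQ y).mp hy
      exact ⟨i, Subtype.ext hi⟩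
    have hcQ : (Nat.card (Q'.map (pS π f) : Subgroup S)).Coprime (Nat.card (pS π f).ker) := by
      obtain ⟨j, hj⟩ := IsPGroup.iff_card.mp hQp
      rw [hj]
      exact Nat.Coprime.pow_left j ((Nat.Prime.coprime_iff_not_dvd hp.out).mpr hpk')
    have hQ1 : ∀ x ∈ Q', pS π f x = 1 → x = 1 := fun x hx hx1 =>
      pel_ker hpk' ((hQ' x).mp hx).1 hx1
    have hQe : Q' = liftV (pS π f) (Q'.map (pS π f)) := eq_liftV hfs hks hcQ rfl hQ1
    have hcen : Subgroup.centralizer (Q' : Set (Fib π f)) =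
        (Subgroup.centralizer ((Q'.map (pS π f) : Subgroup S) : Set S)).comap (pS π f) := by
      conv_lhs => rw [hQe]
      exact centralizer_liftV hfs hks hcQ
    refine ⟨?_, fun hsat => ?_⟩
    · rw [hQe]
      exact comm_liftV hfs hks hcQ hab
    obtain ⟨V, hV', M, hpair, hM0, hM1, hstab⟩ := hst' (by
      intro x hx hxp hxc
      obtain ⟨x, rfl, hx'⟩ := exists_lift_pel hfs hks hpk' hxp
      refine ⟨x, hsat x (by rw [hcen]; exact hx) hx' ?_, rfl⟩
      intro y hy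
      rw [hcen] at hy
      exact pel_comm hks hpk' hx' (hxc _ hy))
    refine ⟨liftV (pS π f) V, ⟨V, hV', rfl⟩, M.comap (pS π f), ?_, ?_, ?_, ?_⟩
    · rw [hQe]
      exact levi_liftV hfs hks (hcV V hV') hcQ hpair
    · rw [eq_bot_iff]
      rintro x ⟨hx1, hx2⟩
      have h1 : pS π f x ∈ M ⊓ Q'.map (pS π f) := ⟨hx1, ⟨x, hx2, rfl⟩⟩
      rw [hM0, Subgroup.mem_bot] at h1
      exact Subgroup.mem_bot.mpr (hQ1 x hx2 h1)
    · rw [hcen, ← hM1]
      have h4 : (pS π f).ker ≤ M.comap (pS π f) := by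
        intro z hz
        rw [Subgroup.mem_comap, MonoidHom.mem_ker.mp hz]
        exact Subgroup.one_mem _
      have h3 : (pS π f).ker ≤ M.comap (pS π f) ⊔ Q' := h4.trans le_sup_left
      rw [← sup_of_le_left h3, ← Subgroup.comap_map_eq, Subgroup.map_sup,
        Subgroup.map_comap_eq_self_of_surjective hfs]
    · intro α hα
      obtain ⟨α₁, hα₁, h1⟩ := hΓ α (hΓ' hα)
      have h2 := hstab α₁ ⟨α, hα, h1⟩
      constructor
      · rintro _ ⟨v, hv, rfl⟩
        obtain ⟨hv1, hv2⟩ := (mem_liftV hfs hks (hcV V hV')).mp hv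
        obtain ⟨w, hw, hwv⟩ := h2.1 _ ⟨pS π f v, hv1, rfl⟩
        have h3 : π w = f (α (pL π f v)) := by rw [hwv, hco, h1]
        refine ⟨⟨(w, α (pL π f v)), h3⟩, (mem_liftV hfs hks (hcV V hV')).mpr ⟨hw, ?_⟩, rfl⟩
        apply Subtype.ext
        refine Prod.ext ?_ ?_
        · change w ^ Nat.card V = 1
          have h4 : (⟨w, hw⟩ : V) ^ Nat.card V = 1 := pow_card_eq_one'
          exact congrArg Subtype.val h4
        · change (α (pL π f v)) ^ Nat.card V = 1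
          rw [← map_pow, ← map_pow, hv2, map_one, map_one]
      · rintro _ ⟨m, hm, rfl⟩
        obtain ⟨w, hw, hwv⟩ := h2.2 _ ⟨pS π f m, hm, rfl⟩
        have h3 : π w = f (α (pL π f m)) := by rw [hwv, hco, h1]
        exact ⟨⟨(w, α (pL π f m)), h3⟩, hw, rfl⟩

end Vale.Agent.P180.R2.H259.Cen
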